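import Vale.Agent.P154.Pe.Run

/-!
# P154: piecewise linear start functionals
-/

namespace Vale.Agent.P154

open MeasureTheory ProbabilityTheory Finset
open scoped BigOperators ENNReal NNReal

namespace Pe

open Evo hiding gen

theorem Zs (u : Fin 3 → ℝ) : Z u = sg u / 3 := by
  unfold Z sg
  rw [Fin.sum_univ_three]
  push_cast
  rfl

theorem Ws (u : Fin 3 → ℝ) :
    W u = (3 * (u 0 ^ 2 + u 1 ^ 2 + u 2 ^ 2) - sg u ^ 2) / (3 * sg u) := by
  unfold W
  rw [Fin.sum_univ_three, Fin.sum_univ_three]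
  have h : u 0 + u 1 + u 2 = sg u := rfl
  rw [h]
  by_cases h0 : sg u = 0
  · rw [h0]; simp
  · push_cast
    field_simp

theorem sg_nonneg {u : Fin 3 → ℝ} (hu : ∀ i, 0 ≤ u i) : 0 ≤ sg u := by
  unfold sg
  have := hu 0
  have := hu 1
  have := hu 2
  linarith

theorem zero_of_sg {u : Fin 3 → ℝ} (hu : ∀ i, 0 ≤ u i) (h : sg u = 0) : ∀ i, u i = 0 := by
  intro i
  unfold sg at h
  have a0 := hu 0
  have a1 := hu 1
  have a2 := hu 2
  fin_cases i
  · show u 0 = 0; linarith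
  · show u 1 = 0; linarith
  · show u 2 = 0; linarith

theorem W_smul' (c : ℝ) (u : Fin 3 → ℝ) : W (fun i => c * u i) = c * W u := by
  rw [Ws, Ws]
  have h2 : sg (fun i => c * u i) = c * sg u := by unfold sg; ring
  rw [h2]
  by_cases hc : c = 0
  · rw [hc]; simp
  · by_cases hS : sg u = 0
    · rw [hS]; simp
    · field_simp

theorem Z_smul' (c : ℝ) (u : Fin 3 → ℝ) : Z (fun i => c * u i) = c * Z u := by
  rw [Zs, Zs]; unfold sg; ring

theorem Z_add' (u v : Fin 3 → ℝ) : Z (fun i => u i + v i) = Z u + Z v := by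
  rw [Zs, Zs, Zs]; unfold sg; ring

theorem W_add' {u v : Fin 3 → ℝ} (hu : ∀ i, 0 ≤ u i) (hv : ∀ i, 0 ≤ v i) :
    W (fun i => u i + v i) ≤ W u + W v := by
  rcases (sg_nonneg hu).eq_or_lt with h | h
  · have h0 := zero_of_sg hu h.symm
    have e : (fun i => u i + v i) = v := by funext i; rw [h0]; ring
    rw [e]
    linarith [W_nonneg (by norm_num) u hu]
  rcases (sg_nonneg hv).eq_or_lt with h' | h'
  · have h0 := zero_of_sg hv h'.symm
    have e : (fun i => u i + v i) = u := by funext i; rw [h0]; ring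
    rw [e]
    linarith [W_nonneg (by norm_num) v hv]
  have e : W u + W v - W (fun i => u i + v i) =
      ((sg v * u 0 - sg u * v 0) ^ 2 + (sg v * u 1 - sg u * v 1) ^ 2 +
        (sg v * u 2 - sg u * v 2) ^ 2) / (sg u * sg v * (sg u + sg v)) := by
    rw [Ws, Ws, Ws]
    have h2 : sg (fun i => u i + v i) = sg u + sg v := by unfold sg; ring
    rw [h2]
    have : sg u + sg v ≠ 0 := by positivity
    field_simp
    ring
  have h6 : 0 ≤ ((sg v * u 0 - sg u * v 0) ^ 2 + (sg v * u 1 - sg u * v 1) ^ 2 +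
        (sg v * u 2 - sg u * v 2) ^ 2) / (sg u * sg v * (sg u + sg v)) := by positivity
  linarith

theorem Z_perm' (u : Fin 3 → ℝ) (p : Equiv.Perm (Fin 3)) : Z (fun i => u (p i)) = Z u := by
  rw [Zs, Zs, sg_perm]

theorem W_perm' (u : Fin 3 → ℝ) (p : Equiv.Perm (Fin 3)) : W (fun i => u (p i)) = W u := by
  unfold W
  rw [Equiv.sum_comp p u, Equiv.sum_comp p fun i => u i ^ 2]

/-- maximum of `0` and the functionals `(α Z + β W) / D` -/
noncomputable def PhM (D : ℕ) : List (ℤ × ℕ) → (Fin 3 → ℝ) → ℝ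
  | [], _ => 0
  | p :: l, u => max (((p.1 : ℝ) * Z u + (p.2 : ℝ) * W u) / D) (PhM D l u)

theorem piece_sub {D : ℕ} (p : ℤ × ℕ) :
    Sub (fun u => ((p.1 : ℝ) * Z u + (p.2 : ℝ) * W u) / D) where
  smul c _ u _ := by
    rw [W_smul', Z_smul']
    ring
  add u v hu hv := by
    have h1 := W_add' hu hv
    have h2 : (p.2 : ℝ) * W (fun i => u i + v i) ≤ p.2 * (W u + W v) :=
      mul_le_mul_of_nonneg_left h1 (Nat.cast_nonneg _)
    rw [Z_add', ← add_div]
    refine div_le_div_of_nonneg_right ?_ (Nat.cast_nonneg _)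
    linarith

theorem sub_max {Φ Ψ : (Fin 3 → ℝ) → ℝ} (hΦ : Sub Φ) (hΨ : Sub Ψ) :
    Sub (fun u => max (Φ u) (Ψ u)) where
  smul c hc u hu := by
    rw [hΦ.smul c hc u hu, hΨ.smul c hc u hu, mul_max_of_nonneg _ _ hc]
  add u v hu hv := by
    refine max_le ?_ ?_
    · exact (hΦ.add u v hu hv).trans (add_le_add (le_max_left _ _) (le_max_left _ _))
    · exact (hΨ.add u v hu hv).trans (add_le_add (le_max_right _ _) (le_max_right _ _))

theorem sub_PhM (D : ℕ) : ∀ l : List (ℤ × ℕ), Sub (PhM D l)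
  | [] => ⟨fun c _ u _ => by simp [PhM], fun u v _ _ => by simp [PhM]⟩
  | p :: l => sub_max (piece_sub p) (sub_PhM D l)

theorem PhM_perm (D : ℕ) (q : Equiv.Perm (Fin 3)) (u : Fin 3 → ℝ) : ∀ l : List (ℤ × ℕ),
    PhM D l (fun i => u (q i)) = PhM D l u
  | [] => rfl
  | p :: l => by
    show max _ (PhM D l (fun i => u (q i))) = max _ (PhM D l u)
    rw [PhM_perm D q u l, W_perm', Z_perm']

theorem sy_PhM (D : ℕ) (l : List (ℤ × ℕ)) (u : Fin 3 → ℝ) : sy (PhM D l) u = 6 * PhM D l u := by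
  unfold sy
  simp only [PhM_perm]
  rw [Finset.sum_const, card_perm]
  simp

/-- integer value at a vertex -/
def phN (n : ℕ) : List (ℤ × ℕ) → V3 → ℤ
  | [], _ => 0
  | p :: l, v => max (p.1 * (36 * (n * n)) +
      p.2 * (3 * (v.a * v.a + v.b * v.b + v.c * v.c) - 36 * (n * n))) (phN n l v)

theorem PhM_vc {n D : ℕ} (hn : 0 < n) (hD : 0 < D) {v : V3} (hv : v.a + v.b + v.c = 6 * n) :
    ∀ l : List (ℤ × ℕ), PhM D l (vc v) = 2 * n / (36 * n ^ 2 * D) * (phN n l v : ℝ)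
  | [] => by simp [PhM, phN]
  | p :: l => by
    have hn' : (0 : ℝ) < n := by exact_mod_cast hn
    have hD' : (0 : ℝ) < D := by exact_mod_cast hD
    show max (((p.1 : ℝ) * Z (vc v) + (p.2 : ℝ) * W (vc v)) / D) (PhM D l (vc v)) = _
    have h1 := PhM_vc hn hD hv l
    have hv' : (v.a : ℝ) + v.b + v.c = 6 * n := by exact_mod_cast hv
    have hS : sg (vc v) = 6 * n := by
      unfold sg vc
      simpa using hv'
    have hQ : vc v 0 ^ 2 + vc v 1 ^ 2 + vc v 2 ^ 2 = (v.a : ℝ) * v.a + v.b * v.b + v.c * v.c := by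
      unfold vc
      simp
      ring
    have h2 : ((p.1 : ℝ) * Z (vc v) + (p.2 : ℝ) * W (vc v)) / D = 2 * n / (36 * n ^ 2 * D) *
        ((p.1 : ℝ) * (36 * (n * n)) +
          (p.2 : ℝ) * (3 * ((v.a : ℝ) * v.a + v.b * v.b + v.c * v.c) - 36 * (n * n))) := by
      rw [Ws, Zs, hS, hQ]
      field_simp
      ring
    rw [h1, h2]
    rw [← mul_max_of_nonneg _ _ (by positivity)]
    congr 1
    show _ = ((max _ _ : ℤ) : ℝ)
    rw [Int.cast_max]
    push_cast
    rfl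

/-- integer weighted sum -/
def lsZ (φ : V3 → ℤ) : List V3 → List ℕ → ℤ
  | v :: L, a :: m => a * φ v + lsZ φ L m
  | _, _ => 0

theorem lsZ_cast (φ : V3 → ℤ) : ∀ (L : List V3) (m : List ℕ),
    (lsZ φ L m : ℝ) = ls (fun v => (φ v : ℝ)) L m
  | [], _ => by simp [ls, lsZ]
  | _ :: _, [] => by simp [ls, lsZ]
  | v :: L, a :: m => by
    have h1 := lsZ_cast φ L m
    have h2 : lsZ φ (v :: L) (a :: m) = a * φ v + lsZ φ L m := rfl
    rw [h2]
    push_cast
    rw [h1]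
    rfl

/-- the start bound -/
theorem InvP.start {n M N : ℕ} (hM : Mesh n M (Evo.mesh n)) (hn : 0 < n) (hN : 0 < N)
    {lam : ℝ} {d : ℝ≥0} {k : ℕ} {m : List ℕ} (h : InvP n M N lam d k m) {D : ℕ} (hD : 0 < D)
    (l : List (ℤ × ℕ)) {X : ℤ} (hX : lsZ (phN n l) (Evo.mesh n) m ≤ X) :
    ∫ T, tot (PhM D l) (lik 3 lam T k) ∂(gwLaw (poissonMeasure d)) ≤
      X / (36 * n ^ 2 * D * N) := by
  have hn' : (0 : ℝ) < n := by exact_mod_cast hn
  have hN' : (0 : ℝ) < N := by exact_mod_cast hN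
  have hD' : (0 : ℝ) < D := by exact_mod_cast hD
  refine (h.2.2 _ (sub_PhM D l)).trans ?_
  rw [ls_congr (φ' := fun v => 6 * (2 * n / (36 * n ^ 2 * D)) * (phN n l v : ℝ)) (Evo.mesh n) m
    (fun v hv => by rw [sy_PhM, PhM_vc hn hD (hM.total v hv)]; ring), ls_smul, ← lsZ_cast]
  have h2 : ((lsZ (phN n l) (Evo.mesh n) m : ℤ) : ℝ) ≤ (X : ℝ) := by exact_mod_cast hX
  calc 1 / (12 * (n : ℝ) * N) * (6 * (2 * n / (36 * n ^ 2 * D)) *
        ((lsZ (phN n l) (Evo.mesh n) m : ℤ) : ℝ))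
      ≤ 1 / (12 * (n : ℝ) * N) * (6 * (2 * n / (36 * n ^ 2 * D)) * (X : ℝ)) := by gcongr
    _ = _ := by field_simp; norm_num

end Pe

end Vale.Agent.P154
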