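import Mathlib

/-!
# P154: Poisson weights for the parameter 200/49
-/

namespace Vale.Agent.P154

namespace Pe

/-- rounded Poisson weights, scaled by `2 ^ 24` -/
def cs1 : List ℕ :=
  [283197, 1155908, 2358995, 3209518, 3275018, 2673484, 1818697, 1060464, 541053, 245375, 100153,
  37162, 12640, 3968, 1157, 314]

theorem exp_up : Real.exp (25 / 49) ≤ 16656310849733 / 10000000000000 := by
  have h := Real.exp_bound' (x := 25 / 49) (by norm_num) (by norm_num) (n := 12) (by norm_num)
  refine h.trans ?_
  simp only [Finset.sum_range_succ, Finset.sum_range_zero]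
  norm_num [Nat.factorial]

theorem exp_lb : (16879884140 / 1000000000000 : ℝ) ≤ Real.exp (-(200 / 49)) := by
  have h1 : Real.exp (200 / 49) = Real.exp (25 / 49) ^ 8 := by
    rw [← Real.exp_nat_mul]
    norm_num
  have h2 : Real.exp (200 / 49) ≤ (16656310849733 / 10000000000000) ^ 8 := by
    rw [h1]
    exact pow_le_pow_left₀ (Real.exp_pos _).le exp_up 8
  rw [Real.exp_neg, le_inv_comm₀ (by norm_num) (Real.exp_pos _)]
  refine h2.trans ?_
  norm_num

theorem cs1_ok : ∀ j < cs1.length, ((cs1.getD j 0 : ℕ) : ℝ) / ((16777216 : ℕ) : ℝ) ≤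
    Real.exp (-(200 / 49)) * ((200 / 49 : ℝ) ^ j / j.factorial) := by
  intro j hj
  have hj' : j < 16 := hj
  refine le_trans ?_ (mul_le_mul_of_nonneg_right exp_lb (by positivity))
  interval_cases j <;> simp only [cs1, List.getD_cons_zero, List.getD_cons_succ] <;>
    norm_num [Nat.factorial]

end Pe

end Vale.Agent.P154
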