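import Vale.Agent.P154.Pe.DataA

/-!
# P154: kernel evolution on Poisson trees, generations 0 to 45, mesh 16
-/

namespace Vale.Agent.P154

namespace Pe

open Evo

set_option maxRecDepth 100000

theorem gA_45 : beqL (gensP 16 1 2 16777216 618475290624 64 153 9792 16 10 cwA zrA 45 pA_0) pA_45 = true := by
  decide +kernel

end Pe

end Vale.Agent.P154
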