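import Vale.Agent.P154.Pe.Inv

/-!
# P154: running the kernel evolution on Poisson trees
-/

namespace Vale.Agent.P154

open MeasureTheory ProbabilityTheory Finset
open scoped BigOperators ENNReal NNReal

deriving instance DecidableEq for V3

namespace Pe

open Evo hiding gen

/-- edge vertex -/
def evP (n p r : ℕ) (v : V3) : V3 :=
  ⟨2 * n * (r + p) - p * v.c, 2 * n * (r + p) - p * v.b, 2 * n * (r + p) - p * v.a⟩

theorem edgeP_cons (n p r : ℕ) (v : V3) (L : List V3) :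
    edgeP n p r (v :: L) = evP n p r v :: edgeP n p r L := rfl

theorem edgeP_map (n p r : ℕ) : ∀ L : List V3, edgeP n p r L = L.map (evP n p r)
  | [] => rfl
  | v :: L => by rw [edgeP_cons, edgeP_map n p r L]; rfl

theorem ls_map (φ : V3 → ℝ) (h : V3 → V3) : ∀ (L : List V3) (m : List ℕ),
    ls φ (L.map h) m = ls (fun v => φ (h v)) L m
  | [], _ => by simp [ls]
  | v :: L, [] => by simp [ls]
  | v :: L, a :: m => by
    rw [List.map_cons]
    show (a : ℝ) * φ (h v) + ls φ (L.map h) m = _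
    rw [ls_map φ h L m]
    rfl

theorem evP_cast {n p r : ℕ} (hpr : 2 * p ≤ r) {v : V3} (hv : v.a + v.b + v.c = 6 * n)
    {x : ℕ} (hx : x ≤ 6 * n) :
    ((2 * n * (r + p) - p * x : ℕ) : ℝ) = 2 * n * (r + p) - p * x := by
  have h1 : p * x ≤ 2 * n * (r + p) := by
    calc p * x ≤ p * (6 * n) := Nat.mul_le_mul_left p hx
      _ = 2 * n * (3 * p) := by ring
      _ ≤ 2 * n * (r + p) := Nat.mul_le_mul_left _ (by omega)
  rw [Nat.cast_sub h1]
  push_cast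
  ring

theorem evP_sum {n p r : ℕ} (hpr : 2 * p ≤ r) {v : V3} (hv : v.a + v.b + v.c = 6 * n) :
    (evP n p r v).a + (evP n p r v).b + (evP n p r v).c = 6 * n * r := by
  have h : (((evP n p r v).a + (evP n p r v).b + (evP n p r v).c : ℕ) : ℝ) =
      ((6 * n * r : ℕ) : ℝ) := by
    unfold evP
    simp only
    rw [Nat.cast_add, Nat.cast_add, evP_cast hpr hv (by omega), evP_cast hpr hv (by omega),
      evP_cast hpr hv (by omega)]
    have hv' : (v.a : ℝ) + v.b + v.c = 6 * n := by exact_mod_cast hv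
    push_cast
    linear_combination (-(p : ℝ)) * hv'
  exact_mod_cast h

theorem shf_vertex {n p r : ℕ} (hr : 0 < r) (hpr : 2 * p ≤ r) {v : V3}
    (hv : v.a + v.b + v.c = 6 * n) {Φ : (Fin 3 → ℝ) → ℝ} (hΦ : Sub Φ) (u : Fin 3 → ℝ)
    (hu : ∀ i, 0 ≤ u i) :
    sy (shf (-(p : ℝ) / r) Φ u) (vc v) =
      1 / r * ∑ q : Equiv.Perm (Fin 3), Φ (fun i => u i * vc (evP n p r v) (q i)) := by
  have hr' : (0 : ℝ) < r := by exact_mod_cast hr
  rw [← Equiv.sum_comp (Equiv.mulLeft (Equiv.swap (0 : Fin 3) 2)), Finset.mul_sum]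
  unfold sy
  refine Finset.sum_congr rfl fun q _ => ?_
  rw [← hΦ.smul (1 / r) (by positivity) _ (fun i => mul_nonneg (hu i) (vec_nonneg _ _))]
  unfold shf
  congr 1
  funext i
  have hv' : (v.a : ℝ) + v.b + v.c = 6 * n := by exact_mod_cast hv
  have hz : Z (fun i => vc v (q i)) = 2 * n := by
    have : Z (fun i => vc v (q i)) = Z (vc v) := by
      unfold Z
      rw [Equiv.sum_comp q (vc v)]
    rw [this]
    unfold Z
    rw [Fin.sum_univ_three]
    show ((v.a : ℝ) + v.b + v.c) / (3 : ℕ) = 2 * n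
    rw [hv']
    push_cast
    ring
  rw [edge_eq, hz]
  have key : ∀ j : Fin 3, vc (evP n p r v) (Equiv.swap (0 : Fin 3) 2 j) =
      2 * n * (r + p) - p * vc v j := by
    intro j
    fin_cases j
    · show ((2 * n * (r + p) - p * v.a : ℕ) : ℝ) = 2 * n * (r + p) - p * (v.a : ℝ)
      exact evP_cast hpr hv (by omega)
    · show ((2 * n * (r + p) - p * v.b : ℕ) : ℝ) = 2 * n * (r + p) - p * (v.b : ℝ)
      exact evP_cast hpr hv (by omega)
    · show ((2 * n * (r + p) - p * v.c : ℕ) : ℝ) = 2 * n * (r + p) - p * (v.c : ℝ)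
      exact evP_cast hpr hv (by omega)
  have e : vc (evP n p r v) ((Equiv.mulLeft (Equiv.swap (0 : Fin 3) 2)) q i) =
      2 * n * (r + p) - p * vc v (q i) := key (q i)
  rw [e]
  field_simp
  ring

/-- parameters of an evolution -/
structure Par where
  (n p r N D B M Lb g nb : ℕ)
  (cs z0 : List ℕ)

/-- side conditions -/
structure Par.OK (P : Par) (s : ℝ) : Prop where
  mesh : Mesh P.n P.M (Evo.mesh P.n)
  last : (Evo.mesh P.n).getLast? = some ⟨2 * P.n, 2 * P.n, 2 * P.n⟩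
  hn : 0 < P.n
  hr : 0 < P.r
  hpr : 2 * P.p ≤ P.r
  hN : 0 < P.N
  hD : P.D = 12 * P.n * (6 * P.n * P.r) * P.N
  hB : P.D * P.N < 2 ^ P.B
  hg : P.M ≤ P.g * P.nb
  hLb : P.Lb = P.B * P.M
  hcs : P.cs.sum ≤ P.N
  hz : P.z0 = List.replicate P.M 0
  hw : ∀ j < P.cs.length, ((P.cs.getD j 0 : ℕ) : ℝ) / P.N ≤ Real.exp (-s) * (s ^ j / j.factorial)

/-- the kernel generation -/
noncomputable def Par.gen (P : Par) (m : List ℕ) : List ℕ :=
  genP P.N P.D P.B P.M P.Lb P.cs P.z0 (blocks P.g P.nb (Evo.mesh P.n))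
    (rowsB (ent P.n P.B) P.Lb (edgeP P.n P.p P.r (Evo.mesh P.n)) (blocks P.g P.nb (Evo.mesh P.n))) m

/-- invariant: domination of the annealed channel by masses on the mesh -/
def InvP (n M N : ℕ) (lam : ℝ) (d : ℝ≥0) (k : ℕ) (m : List ℕ) : Prop :=
  m.length = M ∧ m.sum = N ∧ ∀ Φ : (Fin 3 → ℝ) → ℝ, Sub Φ →
    ∫ T, tot Φ (lik 3 lam T k) ∂(gwLaw (poissonMeasure d)) ≤
      1 / (12 * (n : ℝ) * N) * ls (fun v => sy Φ (vc v)) (Evo.mesh n) m

theorem InvP.step {P : Par} {s : ℝ} (hP : P.OK s) {rho : ℝ} (h0 : 0 ≤ rho) (h1 : rho ≤ 1)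
    {d : ℝ≥0} (hs : rho * d ≤ s) {k : ℕ} {m : List ℕ}
    (h : InvP P.n P.M P.N (-(P.p : ℝ) / P.r * rho) d k m) :
    InvP P.n P.M P.N (-(P.p : ℝ) / P.r * rho) d (k + 1) (P.gen m) := by
  obtain ⟨hlen, hsum, hI⟩ := h
  have hr' : (0 : ℝ) < P.r := by exact_mod_cast hP.hr
  have hn' : (0 : ℝ) < P.n := by exact_mod_cast hP.hn
  have hN' : (0 : ℝ) < P.N := by exact_mod_cast hP.hN
  have hpr' : 2 * (P.p : ℝ) ≤ P.r := by exact_mod_cast hP.hpr
  have hp' : (0 : ℝ) ≤ P.p := Nat.cast_nonneg _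
  have hla : -1 / 2 ≤ -(P.p : ℝ) / P.r := by
    rw [le_div_iff₀ hr']; linarith
  have hla0 : -(P.p : ℝ) / P.r ≤ 0 := div_nonpos_of_nonpos_of_nonneg (by linarith) hr'.le
  have hA : Admissible 3 (-(P.p : ℝ) / P.r) := adm3 hla (by linarith)
  have hlr : -(P.p : ℝ) / P.r ≤ -(P.p : ℝ) / P.r * rho := by nlinarith
  have hlr0 : -(P.p : ℝ) / P.r * rho ≤ 0 := mul_nonpos_of_nonpos_of_nonneg hla0 h0
  have hAr : Admissible 3 (-(P.p : ℝ) / P.r * rho) := adm3 (hla.trans hlr) (by linarith)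
  have hNrm : Nrm (1 / (12 * (P.n : ℝ) * P.N) / P.r) (6 * P.n * P.r)
      (edgeP P.n P.p P.r (Evo.mesh P.n)) m P.N := by
    refine ⟨by positivity, ?_, hsum, ?_, ?_⟩
    · rw [edgeP_map, List.length_map, hlen, hP.mesh.len]
    · intro w hw
      rw [edgeP_map] at hw
      obtain ⟨v, hv, rfl⟩ := List.mem_map.1 hw
      exact evP_sum hP.hpr (hP.mesh.total v hv)
    · push_cast
      field_simp
      norm_num
  have hE : ∀ Φ : (Fin 3 → ℝ) → ℝ, Sub Φ → ∀ u : Fin 3 → ℝ, (∀ i, 0 ≤ u i) →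
      ∫ T, tot (shf (-(P.p : ℝ) / P.r) Φ u) (lik 3 (-(P.p : ℝ) / P.r * rho) T k)
        ∂(gwLaw (poissonMeasure d)) ≤ opL (1 / (12 * (P.n : ℝ) * P.N) / P.r)
          (edgeP P.n P.p P.r (Evo.mesh P.n)) m Φ u := by
    intro Φ hΦ u hu
    refine (hI _ (shf_sub hA hΦ u hu)).trans (le_of_eq ?_)
    unfold opL
    rw [edgeP_map, ls_map, ls_congr (φ' := fun v => 1 / (P.r : ℝ) *
      ∑ q : Equiv.Perm (Fin 3), Φ (fun i => u i * vc (evP P.n P.p P.r v) (q i)))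
      (Evo.mesh P.n) m (fun v hv => shf_vertex hP.hr hP.hpr (hP.mesh.total v hv) hΦ u hu),
      ls_smul]
    ring
  obtain ⟨g1, g2, g3⟩ := genP_spec hP.mesh hP.hn hP.last (Nat.mul_pos (Nat.mul_pos (by norm_num)
    hP.hn) hP.hr) hP.hN hNrm hP.hD hP.hB hP.hg hP.hLb P.cs hP.hcs
  have hgen : P.gen m = genP P.N P.D P.B P.M P.Lb P.cs (List.replicate P.M 0)
      (blocks P.g P.nb (Evo.mesh P.n)) (rowsB (ent P.n P.B) P.Lb
        (edgeP P.n P.p P.r (Evo.mesh P.n)) (blocks P.g P.nb (Evo.mesh P.n))) m := by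
    unfold Par.gen
    rw [hP.hz]
  rw [hgen]
  refine ⟨g1, g2, fun Φ hΦ => ?_⟩
  exact (pois_step hA h0 h1 hAr k d hs hNrm hE P.cs.length
    (fun j => ((P.cs.getD j 0 : ℕ) : ℝ) / P.N) hP.hw hΦ).trans (g3 Φ hΦ)

theorem InvP.iter {P : Par} {s : ℝ} (hP : P.OK s) {rho : ℝ} (h0 : 0 ≤ rho) (h1 : rho ≤ 1)
    {d : ℝ≥0} (hs : rho * d ≤ s) {k : ℕ} : ∀ (j : ℕ) {m : List ℕ},
    InvP P.n P.M P.N (-(P.p : ℝ) / P.r * rho) d k m →
      InvP P.n P.M P.N (-(P.p : ℝ) / P.r * rho) d (k + j) (Evo.iter P.gen j m)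
  | 0, _, h => h
  | j + 1, m, h => by
    have h2 : InvP P.n P.M P.N (-(P.p : ℝ) / P.r * rho) d (k + 1 + j)
        (Evo.iter P.gen j (P.gen m)) := InvP.iter hP h0 h1 hs j (h.step hP h0 h1 hs)
    have e : k + (j + 1) = k + 1 + j := by omega
    rw [e]
    exact h2

theorem InvP.run {P : Par} {s : ℝ} (hP : P.OK s) {rho : ℝ} (h0 : 0 ≤ rho) (h1 : rho ≤ 1)
    {d : ℝ≥0} (hs : rho * d ≤ s) {k j : ℕ} {m m' : List ℕ}
    (h : InvP P.n P.M P.N (-(P.p : ℝ) / P.r * rho) d k m)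
    (hg : beqL (gensP P.n P.p P.r P.N P.D P.B P.M P.Lb P.g P.nb P.cs P.z0 j m) m' = true) :
    InvP P.n P.M P.N (-(P.p : ℝ) / P.r * rho) d (k + j) m' := by
  have h2 := h.iter hP h0 h1 hs j
  have h3 : Evo.iter P.gen j m =
      gensP P.n P.p P.r P.N P.D P.B P.M P.Lb P.g P.nb P.cs P.z0 j m := rfl
  rw [h3, beqL_eq _ _ hg] at h2
  exact h2

theorem InvP.zero {n M N : ℕ} (hM : Mesh n M (Evo.mesh n)) (hn : 0 < n) (hN : 0 < N) (lam : ℝ)
    (d : ℝ≥0) {m : List ℕ} (hm : m = N :: List.replicate (M - 1) 0) :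
    InvP n M N lam d 0 m := by
  subst hm
  have hn' : (0 : ℝ) < n := by exact_mod_cast hn
  have hN' : (0 : ℝ) < N := by exact_mod_cast hN
  refine ⟨by simp; have := hM.posM; omega, by simp, fun Φ hΦ => ?_⟩
  have h1 : ∀ T : List ℕ → ℕ, tot Φ (lik 3 lam T 0) =
      ∑ j : Fin 3, Φ (fun i => if j = i then 1 else 0) := fun T => tot_lik_zero Φ lam T
  simp_rw [h1]
  rw [integral_const]
  have hv := corner_one hM Φ hΦ
  cases hL : Evo.mesh n with
  | nil =>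
    have h2 := hM.len
    have h3 := hM.posM
    rw [hL] at h2
    simp at h2
    omega
  | cons v L =>
    rw [hL] at hv
    have hv' : sy Φ (vc v) = 12 * n * pure3 Φ (fun _ => 1) := hv
    have h4 : pure3 Φ (fun _ => 1) = ∑ j : Fin 3, Φ (fun i => if j = i then 1 else 0) := by
      unfold pure3
      simp only [one_mul]
    show _ ≤ 1 / (12 * (n : ℝ) * N) * ((N : ℝ) * sy Φ (vc v) +
      ls (fun v => sy Φ (vc v)) L (List.replicate (M - 1) 0))
    rw [ls_zeros, hv', h4]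
    refine le_of_eq ?_
    simp
    field_simp

theorem mesh_of {n M : ℕ} (h1 : ∀ i < n + 1, ∀ j < n + 1, i + j ≤ n → pos n i j < M ∧
    ((Evo.mesh n).getD (pos n i j) ⟨0, 0, 0⟩).a = 6 * n - (4 * i + 3 * j) ∧
    ((Evo.mesh n).getD (pos n i j) ⟨0, 0, 0⟩).b = 2 * i + 3 * j ∧
    ((Evo.mesh n).getD (pos n i j) ⟨0, 0, 0⟩).c = 2 * i) (h2 : (Evo.mesh n).length = M)
    (h3 : (Evo.mesh n).all (fun v => Nat.beq (v.a + v.b + v.c) (6 * n)) = true) (h0 : 0 < M) :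
    Mesh n M (Evo.mesh n) where
  len := h2
  posM := h0
  vert i j h := by
    obtain ⟨g1, g2, g3, g4⟩ := h1 i (by omega) j (by omega) h
    refine ⟨g1, ?_⟩
    unfold vc Vr
    rw [g2, g3, g4]
    have e : ((6 * n - (4 * i + 3 * j) : ℕ) : ℝ) = 6 * (n : ℝ) - 4 * i - 3 * j := by
      rw [Nat.cast_sub (by omega)]
      push_cast
      ring
    rw [e]
    push_cast
    rfl
  total v hv := Nat.eq_of_beq_eq_true (List.all_eq_true.1 h3 v hv)

end Pe

end Vale.Agent.P154
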