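import Vale.Agent.P154.Near.MeshInst
import Vale.Agent.P154.Pe.Run
import Vale.Agent.P154.Pe.Exp1
import Vale.Agent.P154.Pe.GA_1
import Vale.Agent.P154.Pe.GA_2

/-!
# P154: ninety generations of Poisson trees with eigenvalue in `[-1/2, -49/100]`
-/

namespace Vale.Agent.P154

open MeasureTheory ProbabilityTheory Finset
open scoped BigOperators ENNReal NNReal

namespace Pe

open Evo hiding gen

set_option maxRecDepth 100000

/-- parameters, mesh 16 -/
def PA : Par := ⟨16, 1, 2, 16777216, 618475290624, 64, 153, 9792, 16, 10, cwA, zrA⟩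

theorem lastA : (Evo.mesh 16).getLast? = some ⟨32, 32, 32⟩ := by decide +kernel

theorem zrA_eq : zrA = List.replicate 153 0 := by decide +kernel

theorem cwA_sum : cwA.sum ≤ 16777216 := by decide +kernel

theorem PA_ok : PA.OK (200 / 49) where
  mesh := mesh16
  last := lastA
  hn := by show 0 < 16; norm_num
  hr := by show 0 < 2; norm_num
  hpr := by show 2 * 1 ≤ 2; norm_num
  hN := by show 0 < 16777216; norm_num
  hD := by show 618475290624 = 12 * 16 * (6 * 16 * 2) * 16777216; norm_num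
  hB := by show 618475290624 * 16777216 < 2 ^ 64; norm_num
  hg := by show 153 ≤ 16 * 10; norm_num
  hLb := by show 9792 = 64 * 153; norm_num
  hcs := cwA_sum
  hz := zrA_eq
  hw := cs1_ok

/-- the range of eigenvalues -/
theorem box_param {lam : ℝ} (h1 : -1 / 2 ≤ lam) (h2 : lam ≤ -49 / 100) {d : ℝ≥0}
    (hd : d * lam ^ 2 ≤ 1) : 0 ≤ -2 * lam ∧ -2 * lam ≤ 1 ∧ (-2 * lam) * d ≤ 200 / 49 ∧
      -((1 : ℕ) : ℝ) / ((2 : ℕ) : ℝ) * (-2 * lam) = lam := by
  have hd0 : (0 : ℝ) ≤ d := d.2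
  refine ⟨by linarith, by linarith, ?_, by push_cast; ring⟩
  have h3 : (-2 * lam) * d * (49 / 100) ≤ 2 * (d * lam ^ 2) := by
    have h4 : 0 ≤ (-2 * lam) * d := mul_nonneg (by linarith) hd0
    nlinarith
  linarith

/-- domination of the channels at depth 90 -/
theorem boxA {lam : ℝ} (h1 : -1 / 2 ≤ lam) (h2 : lam ≤ -49 / 100) {d : ℝ≥0}
    (hd : d * lam ^ 2 ≤ 1) : InvP 16 153 16777216 lam d 90 pA_90 := by
  obtain ⟨g0, g1, g2, g3⟩ := box_param h1 h2 hd
  have h0 : InvP 16 153 16777216 (-((1 : ℕ) : ℝ) / ((2 : ℕ) : ℝ) * (-2 * lam)) d 0 pA_0 :=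
    InvP.zero mesh16 (by norm_num) (by norm_num) _ d (by decide +kernel)
  have h45 := InvP.run (j := 45) PA_ok g0 g1 g2 h0 gA_45
  have h90 := InvP.run (j := 45) PA_ok g0 g1 g2 h45 gA_90
  have e : -(PA.p : ℝ) / PA.r * (-2 * lam) = lam := g3
  rw [e] at h90
  exact h90

end Pe

end Vale.Agent.P154
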