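import Vale.Agent.P154.Pe.DataC
import Vale.Agent.P154.Pe.GA_2

/-!
# P154: kernel evolution on Poisson trees, mesh 20
-/

namespace Vale.Agent.P154

namespace Pe

open Evo

set_option maxRecDepth 100000

theorem gC_20 : beqL (gensP 20 1 2 16777216 966367641600 64 231 14784 16 15 cwC zrC 20 pC_0) pC_20 = true := by
  decide +kernel

end Pe

end Vale.Agent.P154
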