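import Vale.Agent.P154.Pe.DefS
import Vale.Agent.P154.Pe.Run

/-!
# P154: change of mesh
-/

namespace Vale.Agent.P154

open MeasureTheory ProbabilityTheory Finset
open scoped BigOperators ENNReal NNReal

namespace Pe

open Evo hiding gen

theorem InvP.resplit {n M N n' M' B D : ℕ} (hM : Mesh n M (Evo.mesh n))
    (hM' : Mesh n' M' (Evo.mesh n')) (hn : 0 < n) (hn' : 0 < n') (hN : 0 < N) (hD : D = 6 * n)
    (hB : D * N < 2 ^ B) {lam : ℝ} {d : ℝ≥0} {k : ℕ} {m m' : List ℕ}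
    (h : InvP n M N lam d k m) (hm : beqL (resp n n' N D B M' m) m' = true) :
    InvP n' M' N lam d k m' := by
  obtain ⟨hlen, hsum, hI⟩ := h
  have hnr : (0 : ℝ) < n := by exact_mod_cast hn
  have hnr' : (0 : ℝ) < n' := by exact_mod_cast hn'
  have hNr : (0 : ℝ) < N := by exact_mod_cast hN
  have hr : Rep B M' (psi (Evo.mesh n'))
      (dot ((Evo.mesh n).map fun v => srt n' B v.a v.b v.c) m)
      (fun Φ => ls (fun v => 6 * n' * sy Φ (vc v)) (Evo.mesh n) m) :=
    dot_map_rep (fun v => srt n' B v.a v.b v.c) (fun Φ v => 6 * n' * sy Φ (vc v))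
      (fun v => srt_rep hM' v.a v.b v.c) (Evo.mesh n) m
  have hlen' : m.length = (Evo.mesh n).length := by rw [hlen, hM.len]
  have hv : ∀ v ∈ Evo.mesh n, sg (vc v) = 6 * n := by
    intro v hv
    rw [sg_vc, hM.total v hv]
    push_cast
    ring
  have hp : ls (fun v => 6 * n' * sy sg (vc v)) (Evo.mesh n) m = 36 * n' * ((D : ℝ) * N) := by
    rw [ls_const _ (6 * n' * (6 * (6 * n))) (Evo.mesh n) m (fun v hv' => by
      rw [sy_sg, hv v hv']) hlen', hsum, hD]
    push_cast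
    ring
  have hmn : ls (fun v => 6 * n' * sy (fun u => -sg u) (vc v)) (Evo.mesh n) m =
      -(36 * n' * ((D : ℝ) * N)) := by
    rw [ls_const _ (-(6 * n' * (6 * (6 * n)))) (Evo.mesh n) m (fun v hv' => by
      rw [sy_neg_sg, hv v hv']; ring) hlen', hsum, hD]
    push_cast
    ring
  have hD0 : 0 < D := by omega
  obtain ⟨g1, g2, g3⟩ := fin_rep hM' hn' hD0 hB hr hp hmn
  have e : resp n n' N D B M' m =
      fin N D B M' (dot ((Evo.mesh n).map fun v => srt n' B v.a v.b v.c) m) := by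
    unfold resp
    rw [mapV_eq]
  have e' := beqL_eq _ _ hm
  rw [e] at e'
  rw [e'] at g1 g2 g3
  refine ⟨g1, g2, fun Φ hΦ => (hI Φ hΦ).trans ?_⟩
  have h3 := g3 Φ hΦ
  rw [ls_smul, hD] at h3
  push_cast at h3
  rw [div_mul_eq_mul_div, div_mul_eq_mul_div, one_mul, one_mul,
    div_le_div_iff₀ (by positivity) (by positivity)]
  have h4 : 2 * (N : ℝ) * (6 * n' * ls (fun v => sy Φ (vc v)) (Evo.mesh n) m) ≤
      2 * (N : ℝ) * (6 * n * ls (fun v => sy Φ (vc v)) (Evo.mesh n') m') :=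
    mul_le_mul_of_nonneg_left h3 (by positivity)
  linarith

end Pe

end Vale.Agent.P154
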