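import Vale.Agent.P154.Pe.BoxA
import Vale.Agent.P154.Pe.Resp
import Vale.Agent.P154.Pe.GC_1

/-!
# P154: twenty more generations on a finer mesh, eigenvalue in `[-1/2, -49/100]`
-/

namespace Vale.Agent.P154

open MeasureTheory ProbabilityTheory Finset
open scoped BigOperators ENNReal NNReal

namespace Pe

open Evo hiding gen

set_option maxRecDepth 100000

theorem mesh20 : Mesh 20 231 (Evo.mesh 20) :=
  mesh_of (by decide +kernel) (by decide +kernel) (by decide +kernel) (by norm_num)

/-- parameters, mesh 20 -/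
def PC : Par := ⟨20, 1, 2, 16777216, 966367641600, 64, 231, 14784, 16, 15, cwC, zrC⟩

theorem lastC : (Evo.mesh 20).getLast? = some ⟨40, 40, 40⟩ := by decide +kernel

theorem zrC_eq : zrC = List.replicate 231 0 := by decide +kernel

theorem cwC_sum : cwC.sum ≤ 16777216 := by decide +kernel

theorem PC_ok : PC.OK (200 / 49) where
  mesh := mesh20
  last := lastC
  hn := by show 0 < 20; norm_num
  hr := by show 0 < 2; norm_num
  hpr := by show 2 * 1 ≤ 2; norm_num
  hN := by show 0 < 16777216; norm_num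
  hD := by show 966367641600 = 12 * 20 * (6 * 20 * 2) * 16777216; norm_num
  hB := by show 966367641600 * 16777216 < 2 ^ 64; norm_num
  hg := by show 231 ≤ 16 * 15; norm_num
  hLb := by show 14784 = 64 * 231; norm_num
  hcs := cwC_sum
  hz := zrC_eq
  hw := cs1_ok

theorem respC : beqL (resp 16 20 16777216 96 32 231 pA_90) pC_0 = true := by decide +kernel

/-- domination of the channels at depth 110 -/
theorem boxC {lam : ℝ} (h1 : -1 / 2 ≤ lam) (h2 : lam ≤ -49 / 100) {d : ℝ≥0}
    (hd : d * lam ^ 2 ≤ 1) : InvP 20 231 16777216 lam d 110 pC_20 := by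
  obtain ⟨g0, g1, g2, g3⟩ := box_param h1 h2 hd
  have h0 : InvP 20 231 16777216 lam d 90 pC_0 :=
    (boxA h1 h2 hd).resplit mesh16 mesh20 (by norm_num) (by norm_num) (by norm_num) (by norm_num)
      (by norm_num) respC
  have h0' : InvP PC.n PC.M PC.N (-(PC.p : ℝ) / PC.r * (-2 * lam)) d 90 pC_0 := by
    have e : -(PC.p : ℝ) / PC.r * (-2 * lam) = lam := g3
    rw [e]
    exact h0
  have h20 := InvP.run (j := 20) PC_ok g0 g1 g2 h0' gC_20
  have e : -(PC.p : ℝ) / PC.r * (-2 * lam) = lam := g3
  rw [e] at h20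
  exact h20

end Pe

end Vale.Agent.P154
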