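import Vale.Agent.P154.Pe.DataR5

/-!
# P154: kernel evolution on regular trees with 5 children, generations 0 to 60, mesh 16
-/

namespace Vale.Agent.P154

namespace Pe

open Evo

set_option maxRecDepth 100000

theorem gR5_60 : beqL (gensR 16 17 38 11751030521856 68 153 10404 16 10 5 ctrR5 60 pR5_0) pR5_60 = true := by
  decide +kernel

end Pe

end Vale.Agent.P154
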