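import Vale.Agent.P154.Pe.DefR
import Vale.Agent.P154.Pe.Run

/-!
# P154: running the kernel evolution on regular trees
-/

namespace Vale.Agent.P154

open MeasureTheory ProbabilityTheory Finset
open scoped BigOperators ENNReal NNReal

namespace Pe

open Evo hiding gen

theorem tot_shf_le {laA rho : ℝ} (hA : Admissible 3 laA) (h0 : 0 ≤ rho) (h1 : rho ≤ 1)
    {X : Type} [Fintype X] {g : X → Fin 3 → ℝ} (hg : IsChan g)
    {c : ℝ} {E : List V3} {f : List ℕ} {se N : ℕ} (hN : Nrm c se E f N)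
    {Φ : (Fin 3 → ℝ) → ℝ} (hΦ : Sub Φ) (u : Fin 3 → ℝ) (hu : ∀ i, 0 ≤ u i)
    (hE : tot (shf laA Φ u) g ≤ opL c E f Φ u) :
    tot (shf (laA * rho) Φ u) g ≤ opL c E f Φ u := by
  have h2 : tot (shf (laA * rho) Φ u) g ≤ rho * tot (shf laA Φ u) g + (1 - rho) * Φ u := by
    calc tot (shf (laA * rho) Φ u) g
        ≤ ∑ x, (rho * shf laA Φ u (g x) + (1 - rho) * Φ u * Z (g x)) :=
          Finset.sum_le_sum fun x _ => shf_mix hA h0 h1 hΦ hu (hg.nonneg x)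
      _ = rho * tot (shf laA Φ u) g + (1 - rho) * Φ u := by
          rw [Finset.sum_add_distrib, ← Finset.mul_sum, ← Finset.mul_sum,
            hg.sum_Z (by norm_num)]
          unfold tot
          ring
  have h3 := mul_le_mul_of_nonneg_left hE h0
  have h4 := mul_le_mul_of_nonneg_left (hN.jensen hΦ u hu) (by linarith : (0 : ℝ) ≤ 1 - rho)
  linarith

theorem tk_reg {laA rho : ℝ} (hA : Admissible 3 laA) (h0 : 0 ≤ rho) (h1 : rho ≤ 1)
    (h : Admissible 3 (laA * rho)) (n d : ℕ)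
    {c : ℝ} {E : List V3} {f : List ℕ} {se N : ℕ} (hN : Nrm c se E f N)
    (hE : ∀ Φ : (Fin 3 → ℝ) → ℝ, Sub Φ → ∀ u : Fin 3 → ℝ, (∀ i, 0 ≤ u i) →
      tot (shf laA Φ u) (lik 3 (laA * rho) (fun _ => d) n) ≤ opL c E f Φ u) :
    ∀ (k : ℕ) {Φ : (Fin 3 → ℝ) → ℝ}, Sub Φ →
      tk 3 (laA * rho) n Φ k (fun c => sub (fun _ => d) c) ≤ opI c E f Φ k (fun _ => 1)
  | 0, Φ, _ => by
    unfold tk
    rw [tot_prodN_zero]
    exact le_rfl
  | k + 1, Φ, hΦ => by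
    have hB : Sub (opL c E f Φ) := opL_sub hN.pos E f hΦ
    rw [tk_succ_eq, ← opI_comm]
    refine le_trans ?_ (tk_reg hA h0 h1 h n d hN hE k hB)
    have hch := isChan_tk (by norm_num : 0 < 3) h n k (fun c : Fin k => sub (fun _ => d) c)
    unfold tk tot
    rw [Fintype.sum_prod_type]
    refine Finset.sum_le_sum fun a _ => ?_
    have hg : IsChan (lik 3 (laA * rho) (fun _ => d) n) := isChan_lik (by norm_num) h n _
    exact tot_shf_le hA h0 h1 hg hN hΦ _ (hch.nonneg a) (hE Φ hΦ _ (hch.nonneg a))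

theorem reg_step {laA rho : ℝ} (hA : Admissible 3 laA) (h0 : 0 ≤ rho) (h1 : rho ≤ 1)
    (h : Admissible 3 (laA * rho)) (n d : ℕ)
    {c : ℝ} {E : List V3} {f : List ℕ} {se N : ℕ} (hN : Nrm c se E f N)
    (hE : ∀ Φ : (Fin 3 → ℝ) → ℝ, Sub Φ → ∀ u : Fin 3 → ℝ, (∀ i, 0 ≤ u i) →
      tot (shf laA Φ u) (lik 3 (laA * rho) (fun _ => d) n) ≤ opL c E f Φ u)
    {Φ : (Fin 3 → ℝ) → ℝ} (hΦ : Sub Φ) :
    tot Φ (lik 3 (laA * rho) (fun _ => d) (n + 1)) ≤ opI c E f Φ d (fun _ => 1) := by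
  rw [tot_lik_succ]
  exact tk_reg hA h0 h1 h n d hN hE d hΦ

section

variable {n B M : ℕ} {L0 : List V3}

theorem powQ_spec (hM : Mesh n M L0) (hn : 0 < n)
    (hlast : L0.getLast? = some ⟨2 * n, 2 * n, 2 * n⟩) {se N : ℕ} (hse : 0 < se) (hN0 : 0 < N)
    {cE : ℝ} {E : List V3} {f : List ℕ} (hN : Nrm cE se E f N)
    {D : ℕ} (hD : D = 12 * n * se * N) (hB : D * N < 2 ^ B) {H0 : List ℕ}
    (hH0 : H0 = addLast N (List.replicate M 0)) : ∀ k : ℕ,
    (powQ D B M (L0.map fun v => dot (E.map (ent n B v)) f) H0 k).length = M ∧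
    (powQ D B M (L0.map fun v => dot (E.map (ent n B v)) f) H0 k).sum = N ∧
    ∀ Φ : (Fin 3 → ℝ) → ℝ, Sub Φ → ∀ u : Fin 3 → ℝ, (∀ i, 0 ≤ u i) →
      opI cE E f Φ k u ≤ opL (1 / (12 * (n : ℝ) * N)) L0
        (powQ D B M (L0.map fun v => dot (E.map (ent n B v)) f) H0 k) Φ u
  | 0 => by
    have h : powQ D B M (L0.map fun v => dot (E.map (ent n B v)) f) H0 0 = H0 := rfl
    have hne : List.replicate M 0 ≠ ([] : List ℕ) :=
      addLast_ne 0 _ M hM.posM (by simp)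
    rw [h, hH0]
    refine ⟨by rw [addLast_len]; simp, by rw [addLast_sum _ _ hne]; simp, fun Φ hΦ u hu => ?_⟩
    have e1 : opL (1 / (12 * (n : ℝ) * N)) L0 (addLast N (List.replicate M 0)) Φ u =
        (N : ℝ) / N * Φ u := by
      rw [← center_op hn hN0 hΦ u hu N]
      unfold opL
      rw [addLast_ls N _ _ L0 _ (by rw [List.length_replicate, hM.len]) hlast, ls_zeros, zero_add]
    have hN' : (N : ℝ) ≠ 0 := by positivity
    rw [e1, div_self hN', one_mul]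
    exact le_rfl
  | k + 1 => by
    obtain ⟨h1, h2, h3⟩ := powQ_spec hM hn hlast hse hN0 hN hD hB hH0 k
    have h : powQ D B M (L0.map fun v => dot (E.map (ent n B v)) f) H0 (k + 1) =
      mulQ D B M (L0.map fun v => dot (E.map (ent n B v)) f)
        (powQ D B M (L0.map fun v => dot (E.map (ent n B v)) f) H0 k) := rfl
    rw [h]
    generalize powQ D B M (L0.map fun v => dot (E.map (ent n B v)) f) H0 k = H at h1 h2 h3
    obtain ⟨g1, g2, g3⟩ := mulQ_step hM hn hse hN0 hN hD h1 (by rw [h2]; exact hB)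
    refine ⟨g1, by rw [g2, h2], fun Φ hΦ u hu => ?_⟩
    have hc0 : (0 : ℝ) ≤ 1 / (12 * (n : ℝ) * N) := by positivity
    show opL cE E f (opI cE E f Φ k) u ≤ _
    exact (opL_mono hN.pos E f (fun x hx => h3 Φ hΦ x hx) u hu).trans (g3 _ hc0 Φ hΦ u hu)

end

/-- parameters of a regular evolution -/
structure ParR where
  (n p r N D B M Lb g nb d : ℕ)
  (h0 : List ℕ)

/-- side conditions -/
structure ParR.OK (P : ParR) : Prop where
  mesh : Mesh P.n P.M (Evo.mesh P.n)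
  last : (Evo.mesh P.n).getLast? = some ⟨2 * P.n, 2 * P.n, 2 * P.n⟩
  hn : 0 < P.n
  hr : 0 < P.r
  hpr : 2 * P.p ≤ P.r
  hN : 0 < P.N
  hD : P.D = 12 * P.n * (6 * P.n * P.r) * P.N
  hB : P.D * P.N < 2 ^ P.B
  hg : P.M ≤ P.g * P.nb
  hLb : P.Lb = P.B * P.M
  hz : P.h0 = addLast P.N (List.replicate P.M 0)

/-- the kernel generation -/
noncomputable def ParR.gen (P : ParR) (m : List ℕ) : List ℕ :=
  genR P.D P.B P.M P.Lb P.d P.h0 (blocks P.g P.nb (Evo.mesh P.n))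
    (rowsB (ent P.n P.B) P.Lb (edgeP P.n P.p P.r (Evo.mesh P.n)) (blocks P.g P.nb (Evo.mesh P.n))) m

/-- invariant: domination of the channel by masses on the mesh -/
def InvR (n M N : ℕ) (lam : ℝ) (d : ℕ) (k : ℕ) (m : List ℕ) : Prop :=
  m.length = M ∧ m.sum = N ∧ ∀ Φ : (Fin 3 → ℝ) → ℝ, Sub Φ →
    tot Φ (lik 3 lam (fun _ => d) k) ≤
      1 / (12 * (n : ℝ) * N) * ls (fun v => sy Φ (vc v)) (Evo.mesh n) m

theorem InvR.step {P : ParR} (hP : P.OK) {rho : ℝ} (h0 : 0 ≤ rho) (h1 : rho ≤ 1)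
    {k : ℕ} {m : List ℕ}
    (h : InvR P.n P.M P.N (-(P.p : ℝ) / P.r * rho) P.d k m) :
    InvR P.n P.M P.N (-(P.p : ℝ) / P.r * rho) P.d (k + 1) (P.gen m) := by
  obtain ⟨hlen, hsum, hI⟩ := h
  have hr' : (0 : ℝ) < P.r := by exact_mod_cast hP.hr
  have hn' : (0 : ℝ) < P.n := by exact_mod_cast hP.hn
  have hN' : (0 : ℝ) < P.N := by exact_mod_cast hP.hN
  have hpr' : 2 * (P.p : ℝ) ≤ P.r := by exact_mod_cast hP.hpr
  have hp' : (0 : ℝ) ≤ P.p := Nat.cast_nonneg _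
  have hla : -1 / 2 ≤ -(P.p : ℝ) / P.r := by
    rw [le_div_iff₀ hr']; linarith
  have hla0 : -(P.p : ℝ) / P.r ≤ 0 := div_nonpos_of_nonpos_of_nonneg (by linarith) hr'.le
  have hA : Admissible 3 (-(P.p : ℝ) / P.r) := adm3 hla (by linarith)
  have hlr : -(P.p : ℝ) / P.r ≤ -(P.p : ℝ) / P.r * rho := by nlinarith
  have hlr0 : -(P.p : ℝ) / P.r * rho ≤ 0 := mul_nonpos_of_nonpos_of_nonneg hla0 h0
  have hAr : Admissible 3 (-(P.p : ℝ) / P.r * rho) := adm3 (hla.trans hlr) (by linarith)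
  have hNrm : Nrm (1 / (12 * (P.n : ℝ) * P.N) / P.r) (6 * P.n * P.r)
      (edgeP P.n P.p P.r (Evo.mesh P.n)) m P.N := by
    refine ⟨by positivity, ?_, hsum, ?_, ?_⟩
    · rw [edgeP_map, List.length_map, hlen, hP.mesh.len]
    · intro w hw
      rw [edgeP_map] at hw
      obtain ⟨v, hv, rfl⟩ := List.mem_map.1 hw
      exact evP_sum hP.hpr (hP.mesh.total v hv)
    · push_cast
      field_simp
      norm_num
  have hE : ∀ Φ : (Fin 3 → ℝ) → ℝ, Sub Φ → ∀ u : Fin 3 → ℝ, (∀ i, 0 ≤ u i) →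
      tot (shf (-(P.p : ℝ) / P.r) Φ u) (lik 3 (-(P.p : ℝ) / P.r * rho) (fun _ => P.d) k) ≤
        opL (1 / (12 * (P.n : ℝ) * P.N) / P.r) (edgeP P.n P.p P.r (Evo.mesh P.n)) m Φ u := by
    intro Φ hΦ u hu
    refine (hI _ (shf_sub hA hΦ u hu)).trans (le_of_eq ?_)
    unfold opL
    rw [edgeP_map, ls_map, ls_congr (φ' := fun v => 1 / (P.r : ℝ) *
      ∑ q : Equiv.Perm (Fin 3), Φ (fun i => u i * vc (evP P.n P.p P.r v) (q i)))
      (Evo.mesh P.n) m (fun v hv => shf_vertex hP.hr hP.hpr (hP.mesh.total v hv) hΦ u hu),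
      ls_smul]
    ring
  have hse : 0 < 6 * P.n * P.r := Nat.mul_pos (Nat.mul_pos (by norm_num) hP.hn) hP.hr
  have hDB : P.D < 2 ^ P.B := lt_of_le_of_lt (Nat.le_mul_of_pos_right P.D hP.hN) hP.hB
  have hfl : (blocks P.g P.nb (Evo.mesh P.n)).flatten = Evo.mesh P.n :=
    blocks_flatten P.g P.nb (Evo.mesh P.n) (by rw [hP.mesh.len]; exact hP.hg)
  have hQ : qrows P.Lb m (blocks P.g P.nb (Evo.mesh P.n)) (rowsB (ent P.n P.B) P.Lb
      (edgeP P.n P.p P.r (Evo.mesh P.n)) (blocks P.g P.nb (Evo.mesh P.n))) =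
      (Evo.mesh P.n).map fun v => dot ((edgeP P.n P.p P.r (Evo.mesh P.n)).map
        (ent P.n P.B v)) m := by
    rw [qrows_eq, hfl]
    intro b hb v hv
    have hv0 : v ∈ Evo.mesh P.n := by
      rw [← hfl]
      exact List.mem_flatten.2 ⟨b, hb, hv⟩
    rw [hP.hLb]
    exact row_lt hP.mesh hP.hn hNrm.tot hNrm.len hNrm.sum (by rw [← hP.hD]; exact hDB) hv0
  have hgen : P.gen m = powQ P.D P.B P.M ((Evo.mesh P.n).map fun v =>
      dot ((edgeP P.n P.p P.r (Evo.mesh P.n)).map (ent P.n P.B v)) m) P.h0 P.d := by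
    unfold ParR.gen genR
    rw [hQ]
  rw [hgen]
  obtain ⟨g1, g2, g3⟩ := powQ_spec hP.mesh hP.hn hP.last hse hP.hN hNrm hP.hD hP.hB hP.hz P.d
  refine ⟨g1, g2, fun Φ hΦ => ?_⟩
  have h5 := g3 Φ hΦ (fun _ => 1) one_nonneg'
  rw [opL_one] at h5
  exact (reg_step hA h0 h1 hAr k P.d hNrm hE hΦ).trans h5

theorem InvR.iter {P : ParR} (hP : P.OK) {rho : ℝ} (h0 : 0 ≤ rho) (h1 : rho ≤ 1)
    {k : ℕ} : ∀ (j : ℕ) {m : List ℕ},
    InvR P.n P.M P.N (-(P.p : ℝ) / P.r * rho) P.d k m →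
      InvR P.n P.M P.N (-(P.p : ℝ) / P.r * rho) P.d (k + j) (Evo.iter P.gen j m)
  | 0, _, h => h
  | j + 1, m, h => by
    have h2 : InvR P.n P.M P.N (-(P.p : ℝ) / P.r * rho) P.d (k + 1 + j)
        (Evo.iter P.gen j (P.gen m)) := InvR.iter hP h0 h1 j (h.step hP h0 h1)
    have e : k + (j + 1) = k + 1 + j := by omega
    rw [e]
    exact h2

theorem InvR.run {P : ParR} (hP : P.OK) {rho : ℝ} (h0 : 0 ≤ rho) (h1 : rho ≤ 1)
    {k j : ℕ} {m m' : List ℕ}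
    (h : InvR P.n P.M P.N (-(P.p : ℝ) / P.r * rho) P.d k m)
    (hg : beqL (gensR P.n P.p P.r P.D P.B P.M P.Lb P.g P.nb P.d P.h0 j m) m' = true) :
    InvR P.n P.M P.N (-(P.p : ℝ) / P.r * rho) P.d (k + j) m' := by
  have h2 := h.iter hP h0 h1 j
  have h3 : Evo.iter P.gen j m =
      gensR P.n P.p P.r P.D P.B P.M P.Lb P.g P.nb P.d P.h0 j m := rfl
  rw [h3, beqL_eq _ _ hg] at h2
  exact h2

theorem InvR.zero {n M N : ℕ} (hM : Mesh n M (Evo.mesh n)) (hn : 0 < n) (hN : 0 < N) (lam : ℝ)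
    (d : ℕ) {m : List ℕ} (hm : m = N :: List.replicate (M - 1) 0) :
    InvR n M N lam d 0 m := by
  subst hm
  have hn' : (0 : ℝ) < n := by exact_mod_cast hn
  have hN' : (0 : ℝ) < N := by exact_mod_cast hN
  refine ⟨by simp; have := hM.posM; omega, by simp, fun Φ hΦ => ?_⟩
  rw [tot_lik_zero]
  have hv := corner_one hM Φ hΦ
  cases hL : Evo.mesh n with
  | nil =>
    have h2 := hM.len
    have h3 := hM.posM
    rw [hL] at h2
    simp at h2
    omega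
  | cons v L =>
    rw [hL] at hv
    have hv' : sy Φ (vc v) = 12 * n * pure3 Φ (fun _ => 1) := hv
    have h4 : pure3 Φ (fun _ => 1) = ∑ j : Fin 3, Φ (fun i => if j = i then 1 else 0) := by
      unfold pure3
      simp only [one_mul]
    show _ ≤ 1 / (12 * (n : ℝ) * N) * ((N : ℝ) * sy Φ (vc v) +
      ls (fun v => sy Φ (vc v)) L (List.replicate (M - 1) 0))
    rw [ls_zeros, hv', h4]
    refine le_of_eq ?_
    field_simp
    ring

end Pe

end Vale.Agent.P154
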