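import Vale.Agent.P154.Pe.DataR6

/-!
# P154: kernel evolution on regular trees with 6 children, generations 0 to 50, mesh 16
-/

namespace Vale.Agent.P154

namespace Pe

open Evo

set_option maxRecDepth 100000

theorem gR6_50 : beqL (gensR 16 29 71 21955872817152 70 153 10710 16 10 6 ctrR6 50 pR6_0) pR6_50 = true := by
  decide +kernel

end Pe

end Vale.Agent.P154
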