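import Vale.Agent.P154.Near.MeshInst
import Vale.Agent.P154.Pe.Reg
import Vale.Agent.P154.Pe.GR6_1

/-!
# P154: 50 generations of the regular tree with 6 children, eigenvalue in `[-29/71, 0]`
-/

namespace Vale.Agent.P154

open Finset

namespace Pe

open Evo hiding gen

set_option maxRecDepth 100000

/-- parameters -/
def PR6 : ParR := ⟨16, 29, 71, 16777216, 21955872817152, 70, 153, 10710, 16, 10, 6, ctrR6⟩

theorem PR6_last : (Evo.mesh 16).getLast? = some ⟨32, 32, 32⟩ := by decide +kernel

theorem ctrR6_eq : ctrR6 = addLast 16777216 (List.replicate 153 0) := by decide +kernel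

theorem PR6_ok : PR6.OK where
  mesh := mesh16
  last := PR6_last
  hn := by show 0 < 16; norm_num
  hr := by show 0 < 71; norm_num
  hpr := by show 2 * 29 ≤ 71; norm_num
  hN := by show 0 < 16777216; norm_num
  hD := by show 21955872817152 = 12 * 16 * (6 * 16 * 71) * 16777216; norm_num
  hB := by show 21955872817152 * 16777216 < 2 ^ 70; norm_num
  hg := by show 153 ≤ 16 * 10; norm_num
  hLb := by show 10710 = 70 * 153; norm_num
  hz := ctrR6_eq

/-- domination of the channels at depth 50 -/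
theorem boxR6 {lam : ℝ} (h1 : -(29 / 71) ≤ lam) (h2 : lam ≤ 0) :
    InvR 16 153 16777216 lam 6 50 pR6_50 := by
  have g0 : 0 ≤ -(71 / 29) * lam := by nlinarith
  have g1 : -(71 / 29) * lam ≤ 1 := by linarith
  have h0 : InvR 16 153 16777216 (-((29 : ℕ) : ℝ) / ((71 : ℕ) : ℝ) * (-(71 / 29) * lam)) 6 0 pR6_0 :=
    InvR.zero mesh16 (by norm_num) (by norm_num) _ 6 (by decide +kernel)
  have hK := InvR.run (j := 50) PR6_ok g0 g1 h0 gR6_50
  have e : -((29 : ℕ) : ℝ) / ((71 : ℕ) : ℝ) * (-(71 / 29) * lam) = lam := by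
    push_cast; ring
  have e' : -(PR6.p : ℝ) / PR6.r * (-(71 / 29) * lam) = lam := e
  rw [e'] at hK
  exact hK

end Pe

end Vale.Agent.P154
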