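import Vale.Agent.P154.Pe.BoxC
import Vale.Agent.P154.Pe.Start
import Vale.Agent.P154.PBFin

/-!
# P154: the start functional and the pieces
-/

namespace Vale.Agent.P154

open MeasureTheory ProbabilityTheory Finset
open scoped BigOperators ENNReal NNReal

namespace Pe

open Evo hiding gen

/-- pieces of a start functional -/
def pcs (D : ℕ) (l : List (ℤ × ℕ)) : List Sep2.Pc :=
  l.map fun p => ⟨2, D, [(0, 0, p.1), (1, 0, (p.2 : ℤ))]⟩

theorem W_eq_ZA (t : Fin 3 → ℝ) : W t = Z t * Sep2.Av t := by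
  rw [Ws, Zs]
  unfold Sep2.Av
  rw [Zs]
  by_cases h : sg t = 0
  · rw [h]; simp
  · field_simp

theorem PhM_mem {D : ℕ} : ∀ {l : List (ℤ × ℕ)} {p : ℤ × ℕ}, p ∈ l → ∀ t : Fin 3 → ℝ,
    ((p.1 : ℝ) * Z t + (p.2 : ℝ) * W t) / D ≤ PhM D l t
  | q :: l, p, hp, t => by
    rcases List.mem_cons.1 hp with h | h
    · subst h
      exact le_max_left _ _
    · exact (PhM_mem h t).trans (le_max_right _ _)

theorem R_le_PhM {D : ℕ} {l : List (ℤ × ℕ)} {p : Sep2.Pc} (hp : p ∈ pcs D l)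
    (t : Fin 3 → ℝ) : p.R t ≤ PhM D l t := by
  obtain ⟨q, hq, rfl⟩ := List.mem_map.1 hp
  refine le_trans (le_of_eq ?_) (PhM_mem hq t)
  rw [W_eq_ZA]
  unfold Sep2.Pc.R Sep2.sV
  simp only [List.map_cons, List.map_nil, List.sum_cons, List.sum_nil, pow_zero, pow_one]
  push_cast
  ring

/-- nonreconstruction from a certificate with pieces and an evolved law -/
theorem nonrec_of_box {F : Sep2.Full} {P : List Sep2.Pc} {D : ℕ} {l : List (ℤ × ℕ)}
    (H : Sep2.ValidB F P (pcs D l)) (hD : 0 < D) {n M N : ℕ} (hM : Mesh n M (Evo.mesh n))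
    (hn : 0 < n) (hN : 0 < N) {k : ℕ} {m : List ℕ} {X : ℤ}
    (hX : lsZ (phN n l) (Evo.mesh n) m ≤ X)
    (hT : (X : ℝ) / (36 * n ^ 2 * D * N) ≤ F.N * F.dl)
    {lam : ℝ} (h0 : F.lam ≤ lam) (h1 : lam ≤ 0) {d : ℝ≥0} (hd : d * lam ^ 2 ≤ 1)
    (hI : InvP n M N lam d k m) : Nonreconstruction (aPoisson 3 lam d) := by
  obtain ⟨B, hB⟩ := (sub_PhM D l).bound
  exact H.poisson (Φ := PhM D l) (fun p hp t _ => R_le_PhM hp t) hB h0 h1 hd
    ((hI.start hM hn hN hD l hX).trans hT)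

end Pe

end Vale.Agent.P154
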