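import Vale.Agent.P154.Pe.DefR

/-!
# P154: mass lists of the evolution on regular trees with 5 children, mesh 16
-/

namespace Vale.Agent.P154

namespace Pe

/-- all the mass in the center -/
def ctrR5 : List Nat :=
  [0, 0, 0, 0, 0, 0, 0, 0, 0, 0, 0, 0, 0, 0, 0, 0, 0, 0, 0, 0, 0, 0, 0, 0, 0, 0, 0, 0, 0, 0, 0, 0,
  0, 0, 0, 0, 0, 0, 0, 0, 0, 0, 0, 0, 0, 0, 0, 0, 0, 0, 0, 0, 0, 0, 0, 0, 0, 0, 0, 0, 0, 0, 0, 0,
  0, 0, 0, 0, 0, 0, 0, 0, 0, 0, 0, 0, 0, 0, 0, 0, 0, 0, 0, 0, 0, 0, 0, 0, 0, 0, 0, 0, 0, 0, 0, 0,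
  0, 0, 0, 0, 0, 0, 0, 0, 0, 0, 0, 0, 0, 0, 0, 0, 0, 0, 0, 0, 0, 0, 0, 0, 0, 0, 0, 0, 0, 0, 0, 0,
  0, 0, 0, 0, 0, 0, 0, 0, 0, 0, 0, 0, 0, 0, 0, 0, 0, 0, 0, 0, 0, 0, 0, 0, 16777216]

/-- masses after 0 generations -/
def pR5_0 : List Nat :=
  [16777216, 0, 0, 0, 0, 0, 0, 0, 0, 0, 0, 0, 0, 0, 0, 0, 0, 0, 0, 0, 0, 0, 0, 0, 0, 0, 0, 0, 0, 0,
  0, 0, 0, 0, 0, 0, 0, 0, 0, 0, 0, 0, 0, 0, 0, 0, 0, 0, 0, 0, 0, 0, 0, 0, 0, 0, 0, 0, 0, 0, 0, 0,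
  0, 0, 0, 0, 0, 0, 0, 0, 0, 0, 0, 0, 0, 0, 0, 0, 0, 0, 0, 0, 0, 0, 0, 0, 0, 0, 0, 0, 0, 0, 0, 0,
  0, 0, 0, 0, 0, 0, 0, 0, 0, 0, 0, 0, 0, 0, 0, 0, 0, 0, 0, 0, 0, 0, 0, 0, 0, 0, 0, 0, 0, 0, 0, 0,
  0, 0, 0, 0, 0, 0, 0, 0, 0, 0, 0, 0, 0, 0, 0, 0, 0, 0, 0, 0, 0, 0, 0, 0, 0, 0, 0]

/-- masses after 60 generations -/
def pR5_60 : List Nat :=
  [299, 0, 1, 8, 32, 88, 186, 330, 522, 746, 987, 1220, 1421, 1571, 1660, 1692, 412, 0, 25, 185,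
  676, 1658, 3183, 5177, 7524, 10036, 12494, 14799, 16783, 18302, 19308, 19803, 7409, 73, 926,
  3244, 7343, 12897, 19487, 26577, 33508, 40024, 45774, 50673, 54386, 56898, 58376, 25762, 1243,
  7508, 16386, 27600, 39862, 52238, 63869, 74312, 83377, 90597, 96373, 100329, 102575, 48320, 6670,
  26285, 43579, 61275, 78460, 93860, 107179, 118780, 128095, 134901, 139524, 142662, 68787, 18656,
  57506, 80369, 101277, 120326, 136493, 149649, 160124, 168514, 173854, 177069, 87141, 35903,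
  96032, 120753, 143040, 161029, 176108, 188140, 196943, 203547, 207029, 101477, 55951, 136575,
  161058, 180939, 197355, 210000, 219750, 225806, 230307, 115045, 76039, 174337, 197654, 215105,
  229090, 239491, 246665, 251323, 124194, 94711, 209662, 228807, 244297, 255290, 262537, 266377,
  133066, 110781, 238980, 254351, 266073, 274828, 279586, 141863, 125544, 264084, 275944, 285224,
  290427, 146199, 136878, 284321, 292945, 298716, 148791, 145689, 298843, 303139, 151699, 151805,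
  308319, 154676, 156107, 155272, 54591]

end Pe

end Vale.Agent.P154
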