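import Vale.Agent.P154.Pe.DefR

/-!
# P154: mass lists of the evolution on regular trees with 6 children, mesh 16
-/

namespace Vale.Agent.P154

namespace Pe

/-- all the mass in the center -/
def ctrR6 : List Nat :=
  [0, 0, 0, 0, 0, 0, 0, 0, 0, 0, 0, 0, 0, 0, 0, 0, 0, 0, 0, 0, 0, 0, 0, 0, 0, 0, 0, 0, 0, 0, 0, 0,
  0, 0, 0, 0, 0, 0, 0, 0, 0, 0, 0, 0, 0, 0, 0, 0, 0, 0, 0, 0, 0, 0, 0, 0, 0, 0, 0, 0, 0, 0, 0, 0,
  0, 0, 0, 0, 0, 0, 0, 0, 0, 0, 0, 0, 0, 0, 0, 0, 0, 0, 0, 0, 0, 0, 0, 0, 0, 0, 0, 0, 0, 0, 0, 0,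
  0, 0, 0, 0, 0, 0, 0, 0, 0, 0, 0, 0, 0, 0, 0, 0, 0, 0, 0, 0, 0, 0, 0, 0, 0, 0, 0, 0, 0, 0, 0, 0,
  0, 0, 0, 0, 0, 0, 0, 0, 0, 0, 0, 0, 0, 0, 0, 0, 0, 0, 0, 0, 0, 0, 0, 0, 16777216]

/-- masses after 0 generations -/
def pR6_0 : List Nat :=
  [16777216, 0, 0, 0, 0, 0, 0, 0, 0, 0, 0, 0, 0, 0, 0, 0, 0, 0, 0, 0, 0, 0, 0, 0, 0, 0, 0, 0, 0, 0,
  0, 0, 0, 0, 0, 0, 0, 0, 0, 0, 0, 0, 0, 0, 0, 0, 0, 0, 0, 0, 0, 0, 0, 0, 0, 0, 0, 0, 0, 0, 0, 0,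
  0, 0, 0, 0, 0, 0, 0, 0, 0, 0, 0, 0, 0, 0, 0, 0, 0, 0, 0, 0, 0, 0, 0, 0, 0, 0, 0, 0, 0, 0, 0, 0,
  0, 0, 0, 0, 0, 0, 0, 0, 0, 0, 0, 0, 0, 0, 0, 0, 0, 0, 0, 0, 0, 0, 0, 0, 0, 0, 0, 0, 0, 0, 0, 0,
  0, 0, 0, 0, 0, 0, 0, 0, 0, 0, 0, 0, 0, 0, 0, 0, 0, 0, 0, 0, 0, 0, 0, 0, 0, 0, 0]

/-- masses after 50 generations -/
def pR6_50 : List Nat :=
  [364, 0, 4, 26, 83, 186, 337, 529, 750, 981, 1210, 1411, 1580, 1687, 1741, 1750, 456, 2, 88, 464,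
  1334, 2750, 4613, 6780, 9068, 11359, 13468, 15325, 16821, 17921, 18594, 18863, 7071, 216, 1982,
  5493, 10624, 16768, 23350, 29876, 36002, 41505, 46088, 49835, 52588, 54423, 55356, 24234, 2309,
  11518, 21897, 33582, 45438, 56642, 66883, 75815, 83294, 89090, 93636, 96621, 98208, 46226, 9450,
  33441, 51146, 68120, 83968, 97513, 109317, 118933, 126745, 132107, 136118, 138205, 66277, 22751,
  65849, 88125, 107156, 123908, 138130, 149382, 158183, 165009, 169955, 172393, 84265, 40142,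
  103234, 126945, 146285, 162822, 176341, 186476, 193892, 199434, 201853, 99938, 59520, 142330,
  164404, 183078, 197414, 208583, 217296, 223234, 226522, 111785, 78371, 178540, 198699, 214479,
  227380, 236077, 242742, 245677, 123485, 96053, 210182, 228714, 241628, 252193, 259104, 263389,
  130936, 111407, 238762, 253765, 264755, 272056, 276276, 137793, 124399, 261738, 273491, 281345,
  285982, 145037, 135396, 280408, 289109, 294707, 148724, 143923, 295691, 301086, 150487, 150256,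
  305167, 151851, 153704, 153350, 53813]

end Pe

end Vale.Agent.P154
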