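import Vale.Agent.P154.Near.EvoDef

/-!
# P154: kernel-friendly evolution on Poisson trees (definitions)

One generation multiplies masses `H` on the mesh by the masses `f` on the edge vertices, in Horner
form with the Poisson weights.  The products with a block of mesh vertices are packed in one number.
-/

namespace Vale.Agent.P154

namespace Pe

open Evo

/-- packed products of the vertices of a block with `w` -/
noncomputable def pk (E : V3 → V3 → Nat) (Lb : Nat) (w : V3) (blk : List V3) : Nat :=
  @List.rec V3 (fun _ => Nat) 0 (fun v _ ih => Nat.add (E v w) (Nat.shiftLeft ih Lb)) blk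

/-- table: one row for every block -/
noncomputable def rowsB (E : V3 → V3 → Nat) (Lb : Nat) (EL : List V3) (blks : List (List V3)) :
    List (List Nat) :=
  @List.rec (List V3) (fun _ => List (List Nat)) []
    (fun b _ ih => mapV (fun w => pk E Lb w b) EL :: ih) blks

/-- split a packed number along a block -/
noncomputable def unp (Lb : Nat) (blk : List V3) : Nat → List Nat → List Nat :=
  @List.rec V3 (fun _ => Nat → List Nat → List Nat) (fun _ tl => tl)
    (fun _ _ ih R tl => Nat.mod R (Nat.pow 2 Lb) :: ih (Nat.shiftRight R Lb) tl) blk

/-- the packed products of every mesh vertex with the masses `f` -/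
noncomputable def qrows (Lb : Nat) (f : List Nat) (blks : List (List V3)) :
    List (List Nat) → List Nat :=
  @List.rec (List V3) (fun _ => List (List Nat) → List Nat) (fun _ => [])
    (fun b _ ih rows => @List.rec (List Nat) (fun _ => List Nat) []
      (fun r rs _ => unp Lb b (dot r f) (ih rs)) rows) blks

/-- add to the last entry -/
noncomputable def addLast (c : Nat) (l : List Nat) : List Nat :=
  @List.rec Nat (fun _ => List Nat) [] (fun a l ih =>
    @List.rec Nat (fun _ => List Nat) [Nat.add a c] (fun _ _ _ => a :: ih) l) l

/-- one multiplication, rescaled -/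
noncomputable def mulQ (D B M : Nat) (Q H : List Nat) : List Nat := fin (sumL H) D B M (dot Q H)

noncomputable def horner (D B M : Nat) (Q : List Nat) (Z0 : List Nat) (cs : List Nat) : List Nat :=
  @List.rec Nat (fun _ => List Nat) Z0 (fun c _ ih => addLast c (mulQ D B M Q ih)) cs

/-- put the missing mass in the first vertex -/
noncomputable def topUp (N : Nat) (H : List Nat) : List Nat := addHd (Nat.sub N (sumL H)) H

/-- one generation -/
noncomputable def genP (N D B M Lb : Nat) (cs Z0 : List Nat) (blks : List (List V3))
    (rows : List (List Nat)) (f : List Nat) : List Nat :=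
  topUp N (horner D B M (qrows Lb f blks rows) Z0 cs)

/-- images of the mesh under the edge operator with eigenvalue `-p / r` -/
noncomputable def edgeP (n p r : Nat) (l : List V3) : List V3 :=
  @List.rec V3 (fun _ => List V3) [] (fun v _ ih =>
    ⟨Nat.sub (Nat.mul (Nat.mul 2 n) (Nat.add r p)) (Nat.mul p v.c),
      Nat.sub (Nat.mul (Nat.mul 2 n) (Nat.add r p)) (Nat.mul p v.b),
      Nat.sub (Nat.mul (Nat.mul 2 n) (Nat.add r p)) (Nat.mul p v.a)⟩ :: ih) l

noncomputable def takeV (g : Nat) : List V3 → List V3 :=
  @Nat.rec (fun _ => List V3 → List V3) (fun _ => [])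
    (fun _ ih l => @List.rec V3 (fun _ => List V3) [] (fun v l' _ => v :: ih l') l) g

noncomputable def dropV (g : Nat) : List V3 → List V3 :=
  @Nat.rec (fun _ => List V3 → List V3) (fun l => l)
    (fun _ ih l => @List.rec V3 (fun _ => List V3) [] (fun _ l' _ => ih l') l) g

/-- blocks of length `g` -/
noncomputable def blocks (g nb : Nat) : List V3 → List (List V3) :=
  @Nat.rec (fun _ => List V3 → List (List V3)) (fun _ => [])
    (fun _ ih l => takeV g l :: ih (dropV g l)) nb

/-- `k` generations -/
noncomputable def gensP (n p r N D B M Lb g nb : Nat) (cs Z0 : List Nat) (k : Nat)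
    (m : List Nat) : List Nat :=
  (fun blks => (fun rows => iter (genP N D B M Lb cs Z0 blks rows) k m)
    (rowsB (ent n B) Lb (edgeP n p r (mesh n)) blks)) (blocks g nb (mesh n))

end Pe

end Vale.Agent.P154
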