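import Vale.Agent.P154.Pe.Def

/-!
# P154: kernel-friendly evolution on regular trees (definitions)
-/

namespace Vale.Agent.P154

namespace Pe

open Evo

/-- repeated multiplication -/
noncomputable def powQ (D B M : Nat) (Q H0 : List Nat) (d : Nat) : List Nat :=
  @Nat.rec (fun _ => List Nat) H0 (fun _ ih => mulQ D B M Q ih) d

/-- one generation with `d` children -/
noncomputable def genR (D B M Lb d : Nat) (H0 : List Nat) (blks : List (List V3))
    (rows : List (List Nat)) (f : List Nat) : List Nat :=
  powQ D B M (qrows Lb f blks rows) H0 d

/-- `k` generations -/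
noncomputable def gensR (n p r D B M Lb g nb d : Nat) (H0 : List Nat) (k : Nat)
    (m : List Nat) : List Nat :=
  (fun blks => (fun rows => iter (genR D B M Lb d H0 blks rows) k m)
    (rowsB (ent n B) Lb (edgeP n p r (mesh n)) blks)) (blocks g nb (mesh n))

end Pe

end Vale.Agent.P154
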