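import Vale.Agent.P154.Pe.Def

/-!
# P154: change of mesh (definitions)
-/

namespace Vale.Agent.P154

namespace Pe

open Evo

/-- from the mesh `n` to the mesh `n'` -/
noncomputable def resp (n n' N D B M' : Nat) (m : List Nat) : List Nat :=
  fin N D B M' (dot (mapV (fun v => srt n' B v.a v.b v.c) (mesh n)) m)

end Pe

end Vale.Agent.P154
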