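import Mathlib
import Vale.Agent.P154.PoisMix

/-!
# P154: thinning and comparison of Poisson mixtures
-/

namespace Vale.Agent.P154

open Finset Filter Topology
open scoped BigOperators

namespace Pe

/-- binomial averages of a sequence -/
noncomputable def bin (rho : ℝ) : ℕ → (ℕ → ℝ) → ℝ
  | 0, b => b 0
  | k + 1, b => rho * bin rho k (fun j => b (j + 1)) + (1 - rho) * bin rho k b

theorem bin_eq (rho : ℝ) : ∀ (k : ℕ) (b : ℕ → ℝ), bin rho k b =
    ∑ ij ∈ antidiagonal k, (k.choose ij.1 : ℝ) * (rho ^ ij.1 * (1 - rho) ^ ij.2 * b ij.1)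
  | 0, b => by simp [bin]
  | k + 1, b => by
    rw [Finset.sum_antidiagonal_choose_succ_mul
      (fun i j => rho ^ i * (1 - rho) ^ j * b i) k]
    show rho * bin rho k (fun j => b (j + 1)) + (1 - rho) * bin rho k b = _
    rw [bin_eq rho k, bin_eq rho k, Finset.mul_sum, Finset.mul_sum, add_comm]
    congr 1
    · exact Finset.sum_congr rfl fun ij _ => by rw [pow_succ (1 - rho)]; ring
    · refine Finset.sum_congr rfl fun ij hij => ?_
      have h : ij.1 + ij.2 = k := HasAntidiagonal.mem_antidiagonal.1 hij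
      have h2 : k.choose ij.2 = k.choose ij.1 := Nat.choose_symm_of_eq_add (by omega)
      rw [pow_succ rho, h2]; ring

theorem bin_term (rho x : ℝ) (k : ℕ) (b : ℕ → ℝ) : bin rho k b * (x ^ k / k.factorial) =
    ∑ ij ∈ antidiagonal k, (b ij.1 * ((rho * x) ^ ij.1 / ij.1.factorial)) *
      (((1 - rho) * x) ^ ij.2 / ij.2.factorial) := by
  rw [bin_eq, Finset.sum_mul]
  refine Finset.sum_congr rfl fun ij hij => ?_
  have h : ij.1 + ij.2 = k := HasAntidiagonal.mem_antidiagonal.1 hij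
  have h1 : ((ij.1 + ij.2).choose ij.1 : ℝ) * (ij.1.factorial * ij.2.factorial) =
      ((ij.1 + ij.2).factorial : ℝ) := by
    have := Nat.add_choose_mul_factorial_mul_factorial ij.1 ij.2
    rw [← Nat.choose_symm_add] at this
    have h2 : (((ij.1 + ij.2).choose ij.1 * ij.1.factorial * ij.2.factorial : ℕ) : ℝ) =
        (((ij.1 + ij.2).factorial : ℕ) : ℝ) := by rw [this]
    push_cast at h2
    rw [← h2]; ring
  rw [← h]
  have e1 : (ij.1.factorial : ℝ) ≠ 0 := by positivity
  have e2 : (ij.2.factorial : ℝ) ≠ 0 := by positivity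
  have e3 : ((ij.1 + ij.2).factorial : ℝ) ≠ 0 := by positivity
  rw [mul_pow, mul_pow, pow_add]
  field_simp
  rw [← h1]
  ring

/-- Poisson thinning -/
theorem egf_bin {b : ℕ → ℝ} {K : ℝ} (hb : ∀ j, |b j| ≤ K) (rho x : ℝ) :
    egf (fun k => bin rho k b) x = Real.exp ((1 - rho) * x) * egf b (rho * x) := by
  have h1 : Summable fun k : ℕ => ‖b k * ((rho * x) ^ k / k.factorial)‖ :=
    (egf_summable hb (rho * x)).norm
  have h2 : Summable fun k : ℕ => ‖((1 - rho) * x) ^ k / (k.factorial : ℝ)‖ :=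
    (Real.summable_pow_div_factorial ((1 - rho) * x)).norm
  have h3 := tsum_mul_tsum_eq_tsum_sum_antidiagonal_of_summable_norm h1 h2
  have h4 : Real.exp ((1 - rho) * x) = ∑' k : ℕ, ((1 - rho) * x) ^ k / (k.factorial : ℝ) := by
    rw [Real.exp_eq_exp_ℝ, NormedSpace.exp_eq_tsum_div]
  rw [h4, mul_comm]
  unfold egf
  rw [h3]
  exact tsum_congr fun k => bin_term rho x k b

theorem egf_one (x : ℝ) : egf (fun _ => 1) x = Real.exp x := by
  unfold egf
  rw [Real.exp_eq_exp_ℝ, NormedSpace.exp_eq_tsum_div]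
  exact tsum_congr fun k => by rw [one_mul]

theorem egf_mono {a b : ℕ → ℝ} {A B : ℝ} (ha : ∀ k, |a k| ≤ A) (hb : ∀ k, |b k| ≤ B)
    (h : ∀ k, a k ≤ b k) {x : ℝ} (hx : 0 ≤ x) : egf a x ≤ egf b x :=
  (egf_summable ha x).tsum_le_tsum (fun k => mul_le_mul_of_nonneg_right (h k) (by positivity))
    (egf_summable hb x)

/-- the Poisson mean of a nondecreasing sequence is nondecreasing in the parameter -/
theorem pois_mono {b : ℕ → ℝ} {K : ℝ} (hb : ∀ j, |b j| ≤ K) (hmono : ∀ j, b j ≤ b (j + 1))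
    {x y : ℝ} (hx : 0 ≤ x) (hxy : x ≤ y) :
    Real.exp (-x) * egf b x ≤ Real.exp (-y) * egf b y := by
  have hd : ∀ x : ℝ, HasDerivAt (fun x : ℝ => Real.exp (-x) * egf b x)
      (Real.exp (-x) * (-1) * egf b x + Real.exp (-x) * egf (fun k => b (k + 1)) x) x := by
    intro x
    have h1 : HasDerivAt (fun x : ℝ => Real.exp (-x)) (Real.exp (-x) * (-1)) x :=
      (hasDerivAt_neg x).exp
    exact h1.mul (egf_hasDerivAt hb x)
  have hm : MonotoneOn (fun x : ℝ => Real.exp (-x) * egf b x) (Set.Ici 0) := by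
    refine monotoneOn_of_deriv_nonneg (convex_Ici 0)
      (fun z _ => (hd z).continuousAt.continuousWithinAt)
      (fun z _ => (hd z).differentiableAt.differentiableWithinAt) ?_
    intro z hz
    rw [interior_Ici] at hz
    rw [(hd z).deriv]
    have h2 : egf b z ≤ egf (fun k => b (k + 1)) z :=
      egf_mono hb (fun k => hb (k + 1)) hmono (le_of_lt hz)
    have h3 := Real.exp_pos (-z)
    nlinarith
  exact hm (Set.mem_Ici.2 hx) (Set.mem_Ici.2 (hx.trans hxy)) hxy

/-- truncation of a Poisson mean -/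
theorem pois_trunc {b : ℕ → ℝ} {K : ℝ} (hb : ∀ j, |b j| ≤ K) {top : ℝ} (htop : ∀ j, b j ≤ top)
    {s : ℝ} (hs : 0 ≤ s) (J : ℕ) (w : ℕ → ℝ)
    (hw : ∀ j < J, w j ≤ Real.exp (-s) * (s ^ j / j.factorial)) :
    Real.exp (-s) * egf b s ≤
      ∑ j ∈ range J, w j * b j + (1 - ∑ j ∈ range J, w j) * top := by
  have h1 : egf b s = ∑ j ∈ range J, b j * (s ^ j / j.factorial) +
      ∑' j : ℕ, b (j + J) * (s ^ (j + J) / (j + J).factorial) :=
    ((egf_summable hb s).sum_add_tsum_nat_add J).symm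
  have h2 : Real.exp s = ∑ j ∈ range J, (1 : ℝ) * (s ^ j / j.factorial) +
      ∑' j : ℕ, (1 : ℝ) * (s ^ (j + J) / (j + J).factorial) := by
    rw [← egf_one]
    exact ((egf_summable (a := fun _ => (1 : ℝ)) (B := 1) (fun _ => by simp) s).sum_add_tsum_nat_add
      J).symm
  have hs1 : Summable fun j : ℕ => b (j + J) * (s ^ (j + J) / (j + J).factorial) :=
    (summable_nat_add_iff J).2 (egf_summable hb s)
  have hs2 : Summable fun j : ℕ => (1 : ℝ) * (s ^ (j + J) / ((j + J).factorial : ℝ)) :=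
    (summable_nat_add_iff J).2 (egf_summable (a := fun _ => (1 : ℝ)) (B := 1)
      (fun _ => by simp) s)
  have h3 : ∑' j : ℕ, b (j + J) * (s ^ (j + J) / (j + J).factorial) ≤
      top * ∑' j : ℕ, (1 : ℝ) * (s ^ (j + J) / ((j + J).factorial : ℝ)) := by
    rw [← tsum_mul_left]
    refine hs1.tsum_le_tsum (fun j => ?_) (hs2.mul_left top)
    rw [one_mul]
    exact mul_le_mul_of_nonneg_right (htop _) (by positivity)
  have he : 0 < Real.exp (-s) := Real.exp_pos _
  have hee : Real.exp (-s) * Real.exp s = 1 := by rw [← Real.exp_add]; simp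
  obtain ⟨T, hT⟩ : ∃ T, T = ∑' j : ℕ, (1 : ℝ) * (s ^ (j + J) / ((j + J).factorial : ℝ)) := ⟨_, rfl⟩
  rw [← hT] at h2 h3
  have h4 : Real.exp (-s) * T = 1 - ∑ j ∈ range J, Real.exp (-s) * (s ^ j / j.factorial) := by
    have : T = Real.exp s - ∑ j ∈ range J, (1 : ℝ) * (s ^ j / j.factorial) := by linarith
    rw [this, mul_sub, hee, Finset.mul_sum]
    simp only [one_mul]
  have h5 : ∑ j ∈ range J, Real.exp (-s) * (b j * (s ^ j / j.factorial)) ≤
      ∑ j ∈ range J, (w j * b j +
        (Real.exp (-s) * (s ^ j / j.factorial) - w j) * top) := by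
    refine Finset.sum_le_sum fun j hj => ?_
    have h6 := hw j (Finset.mem_range.1 hj)
    have h7 := mul_le_mul_of_nonneg_left (htop j) (sub_nonneg.2 h6)
    nlinarith
  calc Real.exp (-s) * egf b s
      = ∑ j ∈ range J, Real.exp (-s) * (b j * (s ^ j / j.factorial)) +
          Real.exp (-s) * ∑' j : ℕ, b (j + J) * (s ^ (j + J) / (j + J).factorial) := by
        rw [h1, mul_add, Finset.mul_sum]
    _ ≤ ∑ j ∈ range J, (w j * b j +
        (Real.exp (-s) * (s ^ j / j.factorial) - w j) * top) + Real.exp (-s) * (top * T) :=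
        add_le_add h5 (mul_le_mul_of_nonneg_left h3 he.le)
    _ = ∑ j ∈ range J, w j * b j + ((∑ j ∈ range J, Real.exp (-s) * (s ^ j / j.factorial)) -
          ∑ j ∈ range J, w j) * top + (Real.exp (-s) * T) * top := by
        rw [Finset.sum_add_distrib, ← Finset.sum_mul, Finset.sum_sub_distrib]
        ring
    _ = _ := by rw [h4]; ring

end Pe

end Vale.Agent.P154
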