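import Vale.Agent.P154.Pe.Op
import Vale.Agent.P154.Pe.Mix

/-!
# P154: one more child of the root of a Poisson tree
-/

namespace Vale.Agent.P154

open MeasureTheory ProbabilityTheory Finset
open scoped BigOperators ENNReal NNReal

namespace Pe

open Evo hiding gen

/-- put `y` as the `k`-th subtree -/
def comb (k : ℕ) (p : (List ℕ → ℕ) × (List ℕ → ℕ)) : List ℕ → ℕ
  | [] => k + 1
  | c :: w => if c < k then p.1 (c :: w) else if c = k then p.2 w else 0

theorem measurable_comb (k : ℕ) : Measurable (comb k) := by
  refine measurable_pi_lambda _ fun u => ?_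
  cases u with
  | nil => exact measurable_const
  | cons c w =>
    by_cases h1 : c < k
    · have : (fun p : (List ℕ → ℕ) × (List ℕ → ℕ) => comb k p (c :: w)) =
          fun p => p.1 (c :: w) := by
        funext p; simp [comb, h1]
      rw [this]
      exact (measurable_pi_apply _).comp measurable_fst
    · by_cases h2 : c = k
      · have : (fun p : (List ℕ → ℕ) × (List ℕ → ℕ) => comb k p (c :: w)) = fun p => p.2 w := by
          funext p; simp [comb, h2]
        rw [this]
        exact (measurable_pi_apply _).comp measurable_snd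
      · have : (fun p : (List ℕ → ℕ) × (List ℕ → ℕ) => comb k p (c :: w)) = fun _ => 0 := by
          funext p; simp [comb, h1, h2]
        rw [this]
        exact measurable_const

theorem sub_comb_lt {k c : ℕ} (h : c < k) (p : (List ℕ → ℕ) × (List ℕ → ℕ)) :
    sub (comb k p) c = sub p.1 c := by
  funext w
  simp [sub, comb, h]

theorem sub_comb_eq (k : ℕ) (p : (List ℕ → ℕ) × (List ℕ → ℕ)) : sub (comb k p) k = p.2 := by
  funext w
  simp [sub, comb]

theorem sub_trunc_lt {k c : ℕ} (h : c < k) (N : List ℕ → ℕ) : sub (trunc k N) c = sub N c := by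
  funext w
  simp [sub, trunc, h]

theorem map_pair (P : Measure ℕ) [IsProbabilityMeasure P] (k : ℕ) :
    (gwLaw P).map (fun N => (trunc k N, sub N k)) = ((gwLaw P).map (trunc k)).prod (gwLaw P) := by
  have hX : Measurable (trunc k) := (measurable_trunc k).mono (blk_le _) le_rfl
  have hY : Measurable (fun N : List ℕ → ℕ => sub N k) := measurable_sub k
  have hi : IndepFun (trunc k) (fun N : List ℕ → ℕ => sub N k) (gwLaw P) := by
    have h0 := indep_blk P (S := firstS k) (T := {u | ∃ w, u = k :: w}) (by
      rw [Set.disjoint_left]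
      rintro u ⟨c, hc, w, rfl⟩ ⟨w', h'⟩
      have : c = k := by simpa using congrArg List.head? h'
      omega)
    refine indep_of_indep_of_le_left (indep_of_indep_of_le_right h0 ?_) ?_
    · rw [← measurable_iff_comap_le]
      exact measurable_sub_blk (c := k) (fun u => ⟨u, rfl⟩)
    · rw [← measurable_iff_comap_le]
      exact measurable_trunc k
  rw [(indepFun_iff_map_prod_eq_prod_map_map hX.aemeasurable hY.aemeasurable).1 hi, map_sub]

theorem tk_succ_eq (lam : ℝ) (n k : ℕ) (Φ : (Fin 3 → ℝ) → ℝ) (N : List ℕ → ℕ) :
    tk 3 lam n Φ (k + 1) (fun c => sub N c) =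
      tot Φ (prod2 (prodN (fun c : Fin k => fun τ : (gen (sub N c) n → Fin 3) =>
        edge lam (lik 3 lam (sub N c) n τ)))
        (fun τ : (gen (sub N k) n → Fin 3) => edge lam (lik 3 lam (sub N k) n τ))) := by
  unfold tk
  rw [tot_prodN_succ, HJ.tot_prod2_comm]
  rfl

/-- the functional seen by one more child -/
noncomputable def shf (lam : ℝ) (Φ : (Fin 3 → ℝ) → ℝ) (u : Fin 3 → ℝ) (w : Fin 3 → ℝ) : ℝ :=
  Φ (fun i => u i * edge lam w i)

theorem shf_sub {lam : ℝ} (h : Admissible 3 lam) {Φ : (Fin 3 → ℝ) → ℝ} (hΦ : Sub Φ)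
    (u : Fin 3 → ℝ) (hu : ∀ i, 0 ≤ u i) : Sub (shf lam Φ u) :=
  (hΦ.mul u hu).edge h

theorem tk_le {lam : ℝ} (h : Admissible 3 lam) (n : ℕ) (P : Measure ℕ) [IsProbabilityMeasure P]
    {Φ Ψ : (Fin 3 → ℝ) → ℝ} (hΦ : Sub Φ) (hΨ : Sub Ψ)
    (hstep : ∀ u : Fin 3 → ℝ, (∀ i, 0 ≤ u i) →
      ∫ M, tot (shf lam Φ u) (lik 3 lam M n) ∂(gwLaw P) ≤ Ψ u) (k : ℕ) :
    ∫ N, tk 3 lam n Φ (k + 1) (fun c => sub N c) ∂(gwLaw P) ≤
      ∫ N, tk 3 lam n Ψ k (fun c => sub N c) ∂(gwLaw P) := by
  obtain ⟨B, hB⟩ := hΦ.bound
  obtain ⟨B', hB'⟩ := hΨ.bound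
  have hq : 0 < 3 := by norm_num
  set J : (List ℕ → ℕ) × (List ℕ → ℕ) → ℝ :=
    fun p => tk 3 lam n Φ (k + 1) (fun c => sub (comb k p) c) with hJ
  have hJm : Measurable J :=
    ((measurable_tk lam n Φ (k + 1)).mono (blk_le _) le_rfl).comp (measurable_comb k)
  have hJb : ∀ p, |J p| ≤ B := fun p => abs_tot_le hq hB (isChan_tk hq h n (k + 1) _)
  have hX : Measurable (trunc k) := (measurable_trunc k).mono (blk_le _) le_rfl
  have hYm : Measurable (fun N : List ℕ → ℕ => (trunc k N, sub N k)) :=
    hX.prodMk (measurable_sub k)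
  have e1 : ∀ N : List ℕ → ℕ, tk 3 lam n Φ (k + 1) (fun c => sub N c) =
      J (trunc k N, sub N k) := by
    intro N
    simp only [hJ]
    have e : (fun c : Fin (k + 1) => sub N c) =
        fun c : Fin (k + 1) => sub (comb k (trunc k N, sub N k)) c := by
      funext c
      rcases Nat.lt_or_ge (c : ℕ) k with hc | hc
      · rw [sub_comb_lt hc, sub_trunc_lt hc]
      · have : (c : ℕ) = k := by have := c.2; omega
        rw [this, sub_comb_eq]
    rw [e]
  have hprob : IsProbabilityMeasure ((gwLaw P).map (trunc k)) :=
    Measure.isProbabilityMeasure_map hX.aemeasurable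
  have hJi : Integrable J (((gwLaw P).map (trunc k)).prod (gwLaw P)) :=
    Integrable.of_bound hJm.aestronglyMeasurable B (ae_of_all _ fun p => by
      rw [Real.norm_eq_abs]; exact hJb p)
  calc ∫ N, tk 3 lam n Φ (k + 1) (fun c => sub N c) ∂(gwLaw P)
      = ∫ N, J (trunc k N, sub N k) ∂(gwLaw P) := by simp_rw [e1]
    _ = ∫ p, J p ∂((gwLaw P).map (fun N => (trunc k N, sub N k))) := by
        rw [integral_map hYm.aemeasurable hJm.aestronglyMeasurable]
    _ = ∫ x, ∫ y, J (x, y) ∂(gwLaw P) ∂((gwLaw P).map (trunc k)) := by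
        rw [map_pair, integral_prod _ hJi]
    _ ≤ ∫ x, tk 3 lam n Ψ k (fun c => sub x c) ∂((gwLaw P).map (trunc k)) := by
        refine integral_mono hJi.integral_prod_left ?_ fun x => ?_
        · exact Integrable.of_bound
            ((measurable_tk lam n Ψ k).mono (blk_le _) le_rfl).aestronglyMeasurable B'
            (ae_of_all _ fun x => by
              rw [Real.norm_eq_abs]
              exact abs_tot_le hq hB' (isChan_tk hq h n k _))
        · -- the inner integral
          have e2 : ∀ y : List ℕ → ℕ, J (x, y) =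
              ∑ a : (∀ c : Fin k, gen (sub x c) n → Fin 3),
                tot (shf lam Φ (prodN (fun c : Fin k => fun τ : (gen (sub x c) n → Fin 3) =>
                  edge lam (lik 3 lam (sub x c) n τ)) a)) (lik 3 lam y n) := by
            intro y
            have e3 : J (x, y) = tot Φ (prod2 (prodN (fun c : Fin k =>
                fun τ : (gen (sub x c) n → Fin 3) => edge lam (lik 3 lam (sub x c) n τ)))
                (fun τ : (gen y n → Fin 3) => edge lam (lik 3 lam y n τ))) := by
              simp only [hJ]
              unfold tk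
              rw [tot_prodN_succ, HJ.tot_prod2_comm]
              have e4 : ∀ c : Fin k, sub (comb k (x, y)) (Fin.castSucc c : Fin (k + 1)) =
                  sub x c := fun c => sub_comb_lt c.2 (x, y)
              have e5 : sub (comb k (x, y)) (Fin.last k : Fin (k + 1)) = y := sub_comb_eq k (x, y)
              have e6 : (fun c : Fin k => sub (comb k (x, y)) (Fin.castSucc c : Fin (k + 1))) =
                  fun c : Fin k => sub x c := funext e4
              have gen1 : ∀ (A A' : Fin k → List ℕ → ℕ) (b b' : List ℕ → ℕ), A = A' → b = b' →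
                  tot Φ (prod2 (prodN (fun c : Fin k => fun τ : (gen (A c) n → Fin 3) =>
                    edge lam (lik 3 lam (A c) n τ)))
                    (fun τ : (gen b n → Fin 3) => edge lam (lik 3 lam b n τ))) =
                  tot Φ (prod2 (prodN (fun c : Fin k => fun τ : (gen (A' c) n → Fin 3) =>
                    edge lam (lik 3 lam (A' c) n τ)))
                    (fun τ : (gen b' n → Fin 3) => edge lam (lik 3 lam b' n τ))) := by
                intro A A' b b' h1 h2
                subst h1; subst h2; rfl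
              exact gen1 _ _ _ _ e6 e5
            rw [e3]
            unfold tot
            rw [Fintype.sum_prod_type]
            rfl
          simp_rw [e2]
          have hch := isChan_tk hq h n k (fun c : Fin k => sub x c)
          rw [integral_finsetSum]
          · unfold tk tot
            refine Finset.sum_le_sum fun a _ => ?_
            exact hstep _ (hch.nonneg a)
          · intro a _
            obtain ⟨B'', hB''⟩ := (shf_sub h hΦ _ (hch.nonneg a)).bound
            exact Integrable.of_bound (measurable_tot_lik lam _ n).aestronglyMeasurable B''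
              (ae_of_all _ fun y => by
                rw [Real.norm_eq_abs]
                exact abs_tot_le hq hB'' (isChan_lik hq h n y))
    _ = ∫ N, tk 3 lam n Ψ k (fun c => sub (trunc k N) c) ∂(gwLaw P) := by
        rw [integral_map hX.aemeasurable
          ((measurable_tk lam n Ψ k).mono (blk_le _) le_rfl).aestronglyMeasurable]
    _ = ∫ N, tk 3 lam n Ψ k (fun c => sub N c) ∂(gwLaw P) := by
        refine integral_congr_ae (ae_of_all _ fun N => ?_)
        simp only
        have e : (fun c : Fin k => sub (trunc k N) c) = fun c : Fin k => sub N c := by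
          funext c
          exact sub_trunc_lt c.2 N
        rw [e]

end Pe

end Vale.Agent.P154
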