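import Vale.Agent.P154.Pe.Snd

/-!
# P154: invariants of the kernel evolution on Poisson trees
-/

namespace Vale.Agent.P154

open MeasureTheory ProbabilityTheory Finset
open scoped BigOperators ENNReal NNReal

namespace Pe

open Evo hiding gen

/-- Horner sums of operators -/
noncomputable def Gh (N : ℕ) (cE : ℝ) (E : List V3) (f : List ℕ) (Φ : (Fin 3 → ℝ) → ℝ) :
    List ℕ → (Fin 3 → ℝ) → ℝ
  | [] => fun _ => 0
  | c :: cs => fun u => (c : ℝ) / N * Φ u + opL cE E f (Gh N cE E f Φ cs) u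

theorem opL_zero (c : ℝ) (L : List V3) (m : List ℕ) (u : Fin 3 → ℝ) :
    opL c L m (fun _ => 0) u = 0 := by
  have := opL_smul c 0 L m (fun _ => 0) u
  simpa using this

theorem opL_sum (c : ℝ) (L : List V3) (m : List ℕ) (Φ : ℕ → (Fin 3 → ℝ) → ℝ) (w : ℕ → ℝ)
    (u : Fin 3 → ℝ) : ∀ J : ℕ, opL c L m (fun x => ∑ j ∈ range J, w j * Φ j x) u =
      ∑ j ∈ range J, w j * opL c L m (Φ j) u
  | 0 => by
    simp only [Finset.range_zero, Finset.sum_empty]
    exact opL_zero c L m u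
  | J + 1 => by
    simp_rw [Finset.sum_range_succ]
    rw [opL_add, opL_sum c L m Φ w u J, opL_smul]

theorem Gh_eq (N : ℕ) (cE : ℝ) (E : List V3) (f : List ℕ) (Φ : (Fin 3 → ℝ) → ℝ) :
    ∀ (cs : List ℕ) (u : Fin 3 → ℝ), Gh N cE E f Φ cs u =
      ∑ j ∈ range cs.length, ((cs.getD j 0 : ℕ) : ℝ) / N * opI cE E f Φ j u
  | [], u => by simp [Gh]
  | c :: cs, u => by
    show (c : ℝ) / N * Φ u + opL cE E f (Gh N cE E f Φ cs) u = _
    have h : Gh N cE E f Φ cs = fun x => ∑ j ∈ range cs.length,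
        (((cs.getD j 0 : ℕ) : ℝ) / N) * opI cE E f Φ j x := by
      funext x
      exact Gh_eq N cE E f Φ cs x
    rw [h, opL_sum, List.length_cons, Finset.sum_range_succ', add_comm]
    congr 1

theorem addLast_ne (c : ℕ) (l : List ℕ) (M : ℕ) (hM : 0 < M) (h : l.length = M) : l ≠ [] := by
  intro h0
  rw [h0] at h
  simp at h
  omega

section

variable {n B M : ℕ} {L0 : List V3}

/-- the center of the mesh -/
theorem center_op (hn : 0 < n) {N : ℕ} (hN0 : 0 < N) {Φ : (Fin 3 → ℝ) → ℝ} (hΦ : Sub Φ)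
    (u : Fin 3 → ℝ) (hu : ∀ i, 0 ≤ u i) (c : ℕ) :
    1 / (12 * (n : ℝ) * N) * (c * ∑ p : Equiv.Perm (Fin 3),
      Φ (fun i => u i * vc ⟨2 * n, 2 * n, 2 * n⟩ (p i))) = (c : ℝ) / N * Φ u := by
  have hn' : (0 : ℝ) < n := by exact_mod_cast hn
  have hN' : (0 : ℝ) < N := by exact_mod_cast hN0
  have h1 : ∀ p : Equiv.Perm (Fin 3), Φ (fun i => u i * vc ⟨2 * n, 2 * n, 2 * n⟩ (p i)) =
      2 * n * Φ u := by
    intro p
    rw [← hΦ.smul (2 * n) (by positivity) u hu]
    congr 1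
    funext i
    have : ∀ j : Fin 3, vc ⟨2 * n, 2 * n, 2 * n⟩ j = 2 * n := by
      intro j
      fin_cases j <;> simp [vc]
    rw [this]
    ring
  simp_rw [h1]
  rw [Finset.sum_const, card_perm]
  field_simp
  ring

theorem horner_spec (hM : Mesh n M L0) (hn : 0 < n)
    (hlast : L0.getLast? = some ⟨2 * n, 2 * n, 2 * n⟩) {se N : ℕ} (hse : 0 < se) (hN0 : 0 < N)
    {cE : ℝ} {E : List V3} {f : List ℕ} (hN : Nrm cE se E f N)
    {D : ℕ} (hD : D = 12 * n * se * N) (hB : D * N < 2 ^ B) :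
    ∀ cs : List ℕ, cs.sum ≤ N →
    (horner D B M (L0.map fun v => dot (E.map (ent n B v)) f) (List.replicate M 0) cs).length = M ∧
    (horner D B M (L0.map fun v => dot (E.map (ent n B v)) f) (List.replicate M 0) cs).sum =
      cs.sum ∧
    ∀ Φ : (Fin 3 → ℝ) → ℝ, Sub Φ → ∀ u : Fin 3 → ℝ, (∀ i, 0 ≤ u i) →
      Gh N cE E f Φ cs u ≤ opL (1 / (12 * (n : ℝ) * N)) L0
        (horner D B M (L0.map fun v => dot (E.map (ent n B v)) f) (List.replicate M 0) cs) Φ u
  | [], _ => by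
    have h : horner D B M (L0.map fun v => dot (E.map (ent n B v)) f) (List.replicate M 0) [] =
        List.replicate M 0 := rfl
    rw [h]
    refine ⟨by simp, by simp, fun Φ _ u _ => ?_⟩
    unfold opL
    rw [ls_zeros]
    simp [Gh]
  | c :: cs, hcs => by
    rw [List.sum_cons] at hcs
    have hcs' : cs.sum ≤ N := by omega
    obtain ⟨h1, h2, h3⟩ := horner_spec hM hn hlast hse hN0 hN hD hB cs hcs'
    have h : horner D B M (L0.map fun v => dot (E.map (ent n B v)) f) (List.replicate M 0)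
        (c :: cs) = addLast c (mulQ D B M (L0.map fun v => dot (E.map (ent n B v)) f)
          (horner D B M (L0.map fun v => dot (E.map (ent n B v)) f) (List.replicate M 0) cs)) :=
      rfl
    rw [h]
    generalize horner D B M (L0.map fun v => dot (E.map (ent n B v)) f) (List.replicate M 0) cs =
      H at h1 h2 h3
    have hB' : D * H.sum < 2 ^ B :=
      lt_of_le_of_lt (Nat.mul_le_mul_left D (by rw [h2]; exact hcs')) hB
    obtain ⟨g1, g2, g3⟩ := mulQ_step hM hn hse hN0 hN hD h1 hB'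
    refine ⟨by rw [addLast_len, g1], ?_, fun Φ hΦ u hu => ?_⟩
    · rw [addLast_sum c _ (addLast_ne c _ M hM.posM g1), g2, h2, List.sum_cons]
      ring
    · have hc0 : (0 : ℝ) ≤ 1 / (12 * (n : ℝ) * N) := by positivity
      have e1 : opL (1 / (12 * (n : ℝ) * N)) L0 (addLast c
          (mulQ D B M (L0.map fun v => dot (E.map (ent n B v)) f) H)) Φ u =
          opL (1 / (12 * (n : ℝ) * N)) L0
            (mulQ D B M (L0.map fun v => dot (E.map (ent n B v)) f) H) Φ u +
            (c : ℝ) / N * Φ u := by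
        rw [← center_op hn hN0 hΦ u hu c]
        unfold opL
        rw [addLast_ls c _ _ L0 _ (by rw [g1, hM.len]) hlast]
        ring
      rw [e1]
      show (c : ℝ) / N * Φ u + opL cE E f (Gh N cE E f Φ cs) u ≤ _
      have e2 := opL_mono hN.pos E f (fun x hx => h3 Φ hΦ x hx) u hu
      have e3 := g3 (1 / (12 * (n : ℝ) * N)) hc0 Φ hΦ u hu
      linarith

theorem corner_one (hM : Mesh n M L0) (Φ : (Fin 3 → ℝ) → ℝ) (hΦ : Sub Φ) :
    sy Φ (vc (L0.getD 0 ⟨0, 0, 0⟩)) = 12 * n * pure3 Φ (fun _ => 1) := by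
  have h2 := (hM.vert 0 0 (by omega)).2
  have h3 : pos n 0 0 = 0 := by unfold pos; simp
  rw [h3] at h2
  rw [h2]
  have h4 : Vr n 0 0 = fun i => (6 * (n : ℝ)) * (![1, 0, 0] : Fin 3 → ℝ) i := by
    unfold Vr
    funext i
    fin_cases i <;> simp
  rw [h4, hΦ.sy.smul _ (by positivity), sy_corner]
  · unfold pure3
    simp only [one_mul]
    ring
  · intro i
    fin_cases i <;> simp

theorem topUp_ls (φ : V3 → ℝ) (N : ℕ) (hM : Mesh n M L0) {H : List ℕ} (hlen : H.length = M)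
    (hsum : H.sum ≤ N) : (topUp N H).length = M ∧ (topUp N H).sum = N ∧
      ls φ L0 (topUp N H) = ls φ L0 H + ((N : ℝ) - (H.sum : ℝ)) * φ (L0.getD 0 ⟨0, 0, 0⟩) := by
  cases hH : H with
  | nil =>
    rw [hH] at hlen
    have := hM.posM
    simp at hlen
    omega
  | cons a l =>
    rw [hH] at hlen hsum
    cases hL : L0 with
    | nil =>
      have h1 := hM.len
      have h2 := hM.posM
      rw [hL] at h1
      simp at h1
      omega
    | cons v L =>
      have h : topUp N (a :: l) = (a + (N - sumL (a :: l))) :: l := rfl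
      rw [h, sumL_eq]
      refine ⟨by simpa using hlen, ?_, ?_⟩
      · rw [List.sum_cons] at hsum ⊢
        rw [List.sum_cons]
        omega
      · show ((a + (N - (a :: l).sum) : ℕ) : ℝ) * φ v + ls φ L l =
          ((a : ℝ) * φ v + ls φ L l) + ((N : ℝ) - ((a :: l).sum : ℕ)) * φ v
        rw [Nat.cast_add, Nat.cast_sub hsum]
        ring

/-- one generation at the level of operators -/
theorem genP_spec (hM : Mesh n M L0) (hn : 0 < n)
    (hlast : L0.getLast? = some ⟨2 * n, 2 * n, 2 * n⟩) {se N : ℕ} (hse : 0 < se) (hN0 : 0 < N)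
    {cE : ℝ} {E : List V3} {f : List ℕ} (hN : Nrm cE se E f N)
    {D : ℕ} (hD : D = 12 * n * se * N) (hB : D * N < 2 ^ B) {g nb Lb : ℕ} (hg : M ≤ g * nb)
    (hLb : Lb = B * M) (cs : List ℕ) (hcs : cs.sum ≤ N) :
    (genP N D B M Lb cs (List.replicate M 0) (blocks g nb L0)
      (rowsB (ent n B) Lb E (blocks g nb L0)) f).length = M ∧
    (genP N D B M Lb cs (List.replicate M 0) (blocks g nb L0)
      (rowsB (ent n B) Lb E (blocks g nb L0)) f).sum = N ∧
    ∀ Φ : (Fin 3 → ℝ) → ℝ, Sub Φ →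
      ∑ j ∈ range cs.length, ((cs.getD j 0 : ℕ) : ℝ) / N * opI cE E f Φ j (fun _ => 1) +
        (1 - ∑ j ∈ range cs.length, ((cs.getD j 0 : ℕ) : ℝ) / N) * pure3 Φ (fun _ => 1) ≤
      1 / (12 * (n : ℝ) * N) * ls (fun v => sy Φ (vc v)) L0
        (genP N D B M Lb cs (List.replicate M 0) (blocks g nb L0)
          (rowsB (ent n B) Lb E (blocks g nb L0)) f) := by
  have hn' : (0 : ℝ) < n := by exact_mod_cast hn
  have hN' : (0 : ℝ) < N := by exact_mod_cast hN0
  have hDB : D < 2 ^ B := lt_of_le_of_lt (Nat.le_mul_of_pos_right D hN0) hB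
  have hfl : (blocks g nb L0).flatten = L0 := blocks_flatten g nb L0 (by rw [hM.len]; exact hg)
  have hQ : qrows Lb f (blocks g nb L0) (rowsB (ent n B) Lb E (blocks g nb L0)) =
      L0.map fun v => dot (E.map (ent n B v)) f := by
    rw [qrows_eq, hfl]
    intro b hb v hv
    have hv0 : v ∈ L0 := by
      rw [← hfl]
      exact List.mem_flatten.2 ⟨b, hb, hv⟩
    rw [hLb]
    exact row_lt hM hn hN.tot hN.len hN.sum (by rw [← hD]; exact hDB) hv0
  have hgen : genP N D B M Lb cs (List.replicate M 0) (blocks g nb L0)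
      (rowsB (ent n B) Lb E (blocks g nb L0)) f = topUp N (horner D B M
        (L0.map fun v => dot (E.map (ent n B v)) f) (List.replicate M 0) cs) := by
    unfold genP
    rw [hQ]
  rw [hgen]
  obtain ⟨h1, h2, h3⟩ := horner_spec hM hn hlast hse hN0 hN hD hB cs hcs
  generalize horner D B M (L0.map fun v => dot (E.map (ent n B v)) f) (List.replicate M 0) cs =
    H at h1 h2 h3
  have hs : H.sum ≤ N := by rw [h2]; exact hcs
  refine ⟨(topUp_ls (fun _ => 0) N hM h1 hs).1, (topUp_ls (fun _ => 0) N hM h1 hs).2.1,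
    fun Φ hΦ => ?_⟩
  rw [(topUp_ls _ N hM h1 hs).2.2, corner_one hM Φ hΦ]
  have h4 := h3 Φ hΦ (fun _ => 1) one_nonneg'
  rw [Gh_eq, opL_one] at h4
  have h5 : ∑ j ∈ range cs.length, ((cs.getD j 0 : ℕ) : ℝ) / N = (H.sum : ℝ) / N := by
    rw [← Finset.sum_div, h2]
    congr 1
    have : ∀ l : List ℕ, ∑ j ∈ range l.length, ((l.getD j 0 : ℕ) : ℝ) = ((l.sum : ℕ) : ℝ) := by
      intro l
      induction l with
      | nil => simp
      | cons a l ih =>
        rw [List.length_cons, Finset.sum_range_succ', List.sum_cons, Nat.cast_add, ← ih]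
        simp [add_comm]
    exact this cs
  rw [h5]
  have h6 : 1 / (12 * (n : ℝ) * N) * (ls (fun v => sy Φ (vc v)) L0 H +
      ((N : ℝ) - (H.sum : ℝ)) * (12 * n * pure3 Φ (fun _ => 1))) =
      1 / (12 * (n : ℝ) * N) * ls (fun v => sy Φ (vc v)) L0 H +
        (1 - (H.sum : ℝ) / N) * pure3 Φ (fun _ => 1) := by
    field_simp
  rw [h6]
  linarith

end

end Pe

end Vale.Agent.P154
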