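import Vale.Agent.P154.Near.Evo4
import Vale.Agent.P154.HJPois

/-!
# P154: multiplication operators on sublinear functionals
-/

namespace Vale.Agent.P154

open Finset

namespace Evo

/-- the extreme functional -/
noncomputable def pure3 (Φ : (Fin 3 → ℝ) → ℝ) (u : Fin 3 → ℝ) : ℝ :=
  ∑ j : Fin 3, u j * Φ (fun i => if j = i then 1 else 0)

theorem unit_nonneg (j i : Fin 3) : (0 : ℝ) ≤ if j = i then 1 else 0 := by
  split_ifs <;> norm_num

theorem Sub.le_pure {Φ : (Fin 3 → ℝ) → ℝ} (h : Sub Φ) (u : Fin 3 → ℝ) (hu : ∀ i, 0 ≤ u i) :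
    Φ u ≤ pure3 Φ u := by
  have h1 := h.add3 (fun i => u 0 * if (0 : Fin 3) = i then 1 else 0)
    (fun i => u 1 * if (1 : Fin 3) = i then 1 else 0)
    (fun i => u 2 * if (2 : Fin 3) = i then 1 else 0)
    (fun i => mul_nonneg (hu 0) (unit_nonneg 0 i)) (fun i => mul_nonneg (hu 1) (unit_nonneg 1 i))
    (fun i => mul_nonneg (hu 2) (unit_nonneg 2 i))
  rw [h.smul _ (hu 0) _ (unit_nonneg 0), h.smul _ (hu 1) _ (unit_nonneg 1),
    h.smul _ (hu 2) _ (unit_nonneg 2)] at h1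
  have e : (fun i => (u 0 * if (0 : Fin 3) = i then 1 else 0) +
      (u 1 * if (1 : Fin 3) = i then 1 else 0) + (u 2 * if (2 : Fin 3) = i then 1 else 0)) = u := by
    funext i
    fin_cases i <;> simp
  rw [e] at h1
  unfold pure3
  rw [Fin.sum_univ_three]
  exact h1

theorem Sub.bound {Φ : (Fin 3 → ℝ) → ℝ} (h : Sub Φ) :
    ∃ B : ℝ, ∀ u : Fin 3 → ℝ, (∀ i, 0 ≤ u i) → |Φ u| ≤ B * Z u := by
  obtain ⟨K, hK⟩ : ∃ K : ℝ, K = ∑ j : Fin 3, |Φ (fun i => if j = i then 1 else 0)| := ⟨_, rfl⟩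
  have hK0 : 0 ≤ K := by rw [hK]; positivity
  have hu1 : ∀ u : Fin 3 → ℝ, (∀ i, 0 ≤ u i) → Φ u ≤ K * (3 * Z u) := by
    intro u hu
    refine (h.le_pure u hu).trans ?_
    have hZ : 3 * Z u = ∑ j, u j := by
      unfold Z
      push_cast
      ring
    unfold pure3
    rw [hZ, hK, Finset.mul_sum]
    refine Finset.sum_le_sum fun j _ => ?_
    rw [mul_comm]
    refine mul_le_mul_of_nonneg_right ?_ (hu j)
    exact (le_abs_self _).trans
      (Finset.single_le_sum (f := fun j : Fin 3 => |Φ (fun i => if j = i then 1 else 0)|)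
        (fun _ _ => abs_nonneg _) (Finset.mem_univ j))
  refine ⟨3 * (|Φ (fun _ => 1)| + 2 * K), fun u hu => ?_⟩
  have hZ0 : 0 ≤ Z u := by
    unfold Z
    exact div_nonneg (Finset.sum_nonneg fun i _ => hu i) (by norm_num)
  have hZ3 : 3 * Z u = u 0 + u 1 + u 2 := by
    unfold Z
    rw [Fin.sum_univ_three]
    push_cast
    ring
  have hle : ∀ i, u i ≤ 3 * Z u := by
    intro i
    rw [hZ3]
    have h0 := hu 0
    have h1 := hu 1
    have h2 := hu 2
    fin_cases i
    · show u 0 ≤ u 0 + u 1 + u 2; linarith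
    · show u 1 ≤ u 0 + u 1 + u 2; linarith
    · show u 2 ≤ u 0 + u 1 + u 2; linarith
  rw [abs_le]
  constructor
  · -- lower bound
    have h1 := h.add u (fun i => 3 * Z u - u i) hu (fun i => sub_nonneg.2 (hle i))
    have e1 : (fun i => u i + (3 * Z u - u i)) = fun _ => 3 * Z u * 1 := by
      funext i; ring
    rw [e1, h.smul (3 * Z u) (by linarith) (fun _ => 1) (fun _ => zero_le_one)] at h1
    have h2 := hu1 (fun i => 3 * Z u - u i) (fun i => sub_nonneg.2 (hle i))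
    have h3 : 3 * Z (fun i => 3 * Z u - u i) = 2 * (3 * Z u) := by
      have : 3 * Z (fun i => 3 * Z u - u i) = (3 * Z u - u 0) + (3 * Z u - u 1) + (3 * Z u - u 2) := by
        generalize 3 * Z u = z
        unfold Z
        rw [Fin.sum_univ_three]
        push_cast
        ring
      rw [this]
      linarith
    rw [h3] at h2
    have h4 := neg_abs_le (Φ (fun _ => 1))
    have h5 := mul_le_mul_of_nonneg_left h4 (by linarith : (0 : ℝ) ≤ 3 * Z u)
    nlinarith
  · have h1 := hu1 u hu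
    have h2 : 0 ≤ |Φ (fun _ => 1)| * (3 * Z u) := mul_nonneg (abs_nonneg _) (by linarith)
    have h3 : 0 ≤ K * (3 * Z u) := mul_nonneg hK0 (by linarith)
    nlinarith

/-- multiplication by symmetrised masses -/
noncomputable def opL (c : ℝ) (L : List V3) (m : List ℕ) (Φ : (Fin 3 → ℝ) → ℝ)
    (u : Fin 3 → ℝ) : ℝ :=
  c * ls (fun v => ∑ p : Equiv.Perm (Fin 3), Φ (fun i => u i * vc v (p i))) L m

theorem ls_nonneg {φ : V3 → ℝ} (h : ∀ v, 0 ≤ φ v) : ∀ (L : List V3) (m : List ℕ), 0 ≤ ls φ L m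
  | [], _ => by simp [ls]
  | _ :: _, [] => by simp [ls]
  | v :: L, a :: m => by
    have h1 := ls_nonneg h L m
    have h2 := mul_nonneg (Nat.cast_nonneg (α := ℝ) a) (h v)
    show 0 ≤ (a : ℝ) * φ v + ls φ L m
    linarith

theorem opL_sub {c : ℝ} (hc : 0 ≤ c) (L : List V3) (m : List ℕ) {Φ : (Fin 3 → ℝ) → ℝ}
    (h : Sub Φ) : Sub (opL c L m Φ) where
  smul a ha u hu := by
    unfold opL
    have e : (fun v : V3 => ∑ p : Equiv.Perm (Fin 3), Φ (fun i => a * u i * vc v (p i))) =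
        fun v => a * ∑ p : Equiv.Perm (Fin 3), Φ (fun i => u i * vc v (p i)) := by
      funext v
      rw [Finset.mul_sum]
      refine Finset.sum_congr rfl fun p _ => ?_
      rw [← h.smul a ha _ (fun i => mul_nonneg (hu i) (vec_nonneg v _))]
      congr 1
      funext i
      ring
    rw [e, ls_smul]
    ring
  add u w hu hw := by
    unfold opL
    rw [← mul_add, ← ls_add]
    refine mul_le_mul_of_nonneg_left (ls_mono (fun v => ?_) L m) hc
    rw [← Finset.sum_add_distrib]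
    refine Finset.sum_le_sum fun p _ => ?_
    have := h.add (fun i => u i * vc v (p i)) (fun i => w i * vc v (p i))
      (fun i => mul_nonneg (hu i) (vec_nonneg v _)) (fun i => mul_nonneg (hw i) (vec_nonneg v _))
    refine le_trans (le_of_eq ?_) this
    congr 1
    funext i
    ring

theorem opL_mono {c : ℝ} (hc : 0 ≤ c) (L : List V3) (m : List ℕ) {Φ Ψ : (Fin 3 → ℝ) → ℝ}
    (h : ∀ u : Fin 3 → ℝ, (∀ i, 0 ≤ u i) → Φ u ≤ Ψ u) (u : Fin 3 → ℝ) (hu : ∀ i, 0 ≤ u i) :
    opL c L m Φ u ≤ opL c L m Ψ u := by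
  unfold opL
  refine mul_le_mul_of_nonneg_left (ls_mono (fun v => ?_) L m) hc
  exact Finset.sum_le_sum fun p _ => h _ fun i => mul_nonneg (hu i) (vec_nonneg v _)

theorem opL_add (c : ℝ) (L : List V3) (m : List ℕ) (Φ Ψ : (Fin 3 → ℝ) → ℝ) (u : Fin 3 → ℝ) :
    opL c L m (fun w => Φ w + Ψ w) u = opL c L m Φ u + opL c L m Ψ u := by
  unfold opL
  rw [← mul_add, ← ls_add]
  congr 2
  funext v
  exact Finset.sum_add_distrib

theorem opL_smul (c a : ℝ) (L : List V3) (m : List ℕ) (Φ : (Fin 3 → ℝ) → ℝ) (u : Fin 3 → ℝ) :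
    opL c L m (fun w => a * Φ w) u = a * opL c L m Φ u := by
  unfold opL
  have e : (fun v : V3 => ∑ p : Equiv.Perm (Fin 3), a * Φ (fun i => u i * vc v (p i))) =
      fun v => a * ∑ p : Equiv.Perm (Fin 3), Φ (fun i => u i * vc v (p i)) := by
    funext v
    rw [Finset.mul_sum]
  rw [e, ls_smul]
  ring

/-- the value at the unit vector -/
theorem opL_one (c : ℝ) (L : List V3) (m : List ℕ) (Φ : (Fin 3 → ℝ) → ℝ) :
    opL c L m Φ (fun _ => 1) = c * ls (fun v => sy Φ (vc v)) L m := by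
  unfold opL sy
  simp only [one_mul]

/-- every permuted vector sums to the same -/
theorem sum_perm_vc (v : V3) (i : Fin 3) :
    ∑ p : Equiv.Perm (Fin 3), vc v (p i) = 2 * sg (vc v) := by
  have h := perm_sum' (fun s => vc v (s i))
  rw [h]
  unfold sg
  fin_cases i <;> simp <;> ring

/-- normalised lists -/
structure Nrm (c : ℝ) (s : ℕ) (L : List V3) (m : List ℕ) (N : ℕ) : Prop where
  pos : 0 ≤ c
  len : m.length = L.length
  sum : m.sum = N
  tot : ∀ v ∈ L, v.a + v.b + v.c = s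
  one : c * (2 * s * N) = 1

theorem Nrm.jensen {c : ℝ} {s : ℕ} {L : List V3} {m : List ℕ} {N : ℕ} (h : Nrm c s L m N)
    {Φ : (Fin 3 → ℝ) → ℝ} (hΦ : Sub Φ) (u : Fin 3 → ℝ) (hu : ∀ i, 0 ≤ u i) :
    Φ u ≤ opL c L m Φ u := by
  -- for each vertex the sum over permutations is at least the value at the averaged vector
  have h1 : ∀ v : V3, 2 * sg (vc v) * Φ u ≤
      ∑ p : Equiv.Perm (Fin 3), Φ (fun i => u i * vc v (p i)) := by
    intro v
    have hs : 0 ≤ 2 * sg (vc v) := by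
      unfold sg
      have h0 := vec_nonneg v 0
      have h1 := vec_nonneg v 1
      have h2 := vec_nonneg v 2
      linarith
    rw [← hΦ.smul _ hs u hu]
    have key : ∀ S : Finset (Equiv.Perm (Fin 3)),
        Φ (fun i => ∑ p ∈ S, u i * vc v (p i)) ≤ ∑ p ∈ S, Φ (fun i => u i * vc v (p i)) := by
      intro S
      induction S using Finset.induction_on with
      | empty => simp [hΦ.zero]
      | insert p S hp ih =>
        rw [Finset.sum_insert hp]
        have e : (fun i => ∑ p ∈ insert p S, u i * vc v (p i)) =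
            fun i => u i * vc v (p i) + ∑ p ∈ S, u i * vc v (p i) := by
          funext i
          rw [Finset.sum_insert hp]
        rw [e]
        have := hΦ.add (fun i => u i * vc v (p i)) (fun i => ∑ p ∈ S, u i * vc v (p i))
          (fun i => mul_nonneg (hu i) (vec_nonneg v _))
          (fun i => Finset.sum_nonneg fun p _ => mul_nonneg (hu i) (vec_nonneg v _))
        linarith
    refine le_trans (le_of_eq ?_) (key Finset.univ)
    congr 1
    funext i
    rw [← Finset.mul_sum, sum_perm_vc]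
    ring
  unfold opL
  have h2 : ls (fun v => 2 * sg (vc v) * Φ u) L m = 2 * s * Φ u * N := by
    rw [ls_const (fun v => 2 * sg (vc v) * Φ u) (2 * s * Φ u) L m (fun v hv => by
      rw [sg_vc, h.tot v hv]) h.len, h.sum]
  have h3 := mul_le_mul_of_nonneg_left (ls_mono h1 L m) h.pos
  rw [h2] at h3
  have h4 := h.one
  calc Φ u = c * (2 * s * N) * Φ u := by rw [h4, one_mul]
    _ = c * (2 * s * Φ u * N) := by ring
    _ ≤ _ := h3

theorem pure3_opL {c : ℝ} {s : ℕ} {L : List V3} {m : List ℕ} {N : ℕ} (h : Nrm c s L m N)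
    (Φ : (Fin 3 → ℝ) → ℝ) (u : Fin 3 → ℝ) : opL c L m (pure3 Φ) u = pure3 Φ u := by
  unfold opL
  have h1 : ∀ v ∈ L, ∑ p : Equiv.Perm (Fin 3), pure3 Φ (fun i => u i * vc v (p i)) =
      2 * s * pure3 Φ u := by
    intro v hv
    unfold pure3
    rw [Finset.sum_comm, Finset.mul_sum]
    refine Finset.sum_congr rfl fun j _ => ?_
    have : ∑ p : Equiv.Perm (Fin 3), u j * vc v (p j) * Φ (fun i => if j = i then 1 else 0) =
        (u j * Φ (fun i => if j = i then 1 else 0)) * ∑ p : Equiv.Perm (Fin 3), vc v (p j) := by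
      rw [Finset.mul_sum]
      exact Finset.sum_congr rfl fun p _ => by ring
    rw [this, sum_perm_vc, sg_vc, h.tot v hv]
    ring
  rw [ls_const _ _ L m h1 h.len, h.sum]
  have h4 := h.one
  calc c * (2 * s * pure3 Φ u * N) = c * (2 * s * N) * pure3 Φ u := by ring
    _ = _ := by rw [h4, one_mul]

theorem Nrm.le_pure {c : ℝ} {s : ℕ} {L : List V3} {m : List ℕ} {N : ℕ} (h : Nrm c s L m N)
    {Φ : (Fin 3 → ℝ) → ℝ} {Ψ : (Fin 3 → ℝ) → ℝ}
    (hΦ : ∀ u : Fin 3 → ℝ, (∀ i, 0 ≤ u i) → Φ u ≤ pure3 Ψ u) (u : Fin 3 → ℝ)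
    (hu : ∀ i, 0 ≤ u i) : opL c L m Φ u ≤ pure3 Ψ u := by
  rw [← pure3_opL h Ψ u]
  exact opL_mono h.pos L m hΦ u hu

/-- iterates of the operator -/
noncomputable def opI (c : ℝ) (L : List V3) (m : List ℕ) (Φ : (Fin 3 → ℝ) → ℝ) :
    ℕ → (Fin 3 → ℝ) → ℝ
  | 0 => Φ
  | j + 1 => opL c L m (opI c L m Φ j)

theorem opI_sub {c : ℝ} (hc : 0 ≤ c) (L : List V3) (m : List ℕ) {Φ : (Fin 3 → ℝ) → ℝ}
    (h : Sub Φ) : ∀ j, Sub (opI c L m Φ j)
  | 0 => h
  | j + 1 => opL_sub hc L m (opI_sub hc L m h j)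

theorem opI_comm (c : ℝ) (L : List V3) (m : List ℕ) (Φ : (Fin 3 → ℝ) → ℝ) :
    ∀ j, opI c L m (opL c L m Φ) j = opI c L m Φ (j + 1)
  | 0 => rfl
  | j + 1 => by
    show opL c L m (opI c L m (opL c L m Φ) j) = opL c L m (opI c L m Φ (j + 1))
    rw [opI_comm c L m Φ j]

end Evo

end Vale.Agent.P154
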