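import Vale.Agent.P154.Pe.Fub

/-!
# P154: one generation of a Poisson tree in the degradation order
-/

namespace Vale.Agent.P154

open MeasureTheory ProbabilityTheory Finset
open scoped BigOperators ENNReal NNReal

namespace Pe

open Evo hiding gen

theorem adm3 {lam : ℝ} (h0 : -1 / 2 ≤ lam) (h1 : lam ≤ 1) : Admissible 3 lam := by
  intro i j
  unfold potts
  push_cast
  split_ifs
  · linarith
  · linarith

theorem edge_mix (laA rho : ℝ) (w : Fin 3 → ℝ) (i : Fin 3) :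
    edge (laA * rho) w i = rho * edge laA w i + (1 - rho) * Z w := by
  rw [edge_eq, edge_eq]
  ring

theorem Z_nonneg3 {w : Fin 3 → ℝ} (hw : ∀ i, 0 ≤ w i) : 0 ≤ Z w := by
  unfold Z
  exact div_nonneg (Finset.sum_nonneg fun i _ => hw i) (by norm_num)

theorem shf_mix {laA rho : ℝ} (hA : Admissible 3 laA) (h0 : 0 ≤ rho) (h1 : rho ≤ 1)
    {Φ : (Fin 3 → ℝ) → ℝ} (hΦ : Sub Φ) {u w : Fin 3 → ℝ} (hu : ∀ i, 0 ≤ u i)
    (hw : ∀ i, 0 ≤ w i) :
    shf (laA * rho) Φ u w ≤ rho * shf laA Φ u w + (1 - rho) * Φ u * Z w := by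
  unfold shf
  have hZ := Z_nonneg3 hw
  have he : ∀ i, 0 ≤ edge laA w i := fun i => edge_nonneg hA hw i
  have h2 := hΦ.add (fun i => rho * (u i * edge laA w i)) (fun i => ((1 - rho) * Z w) * u i)
    (fun i => mul_nonneg h0 (mul_nonneg (hu i) (he i)))
    (fun i => mul_nonneg (mul_nonneg (by linarith) hZ) (hu i))
  rw [hΦ.smul rho h0 _ (fun i => mul_nonneg (hu i) (he i)),
    hΦ.smul ((1 - rho) * Z w) (mul_nonneg (by linarith) hZ) u hu] at h2
  have e : (fun i => u i * edge (laA * rho) w i) =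
      fun i => rho * (u i * edge laA w i) + ((1 - rho) * Z w) * u i := by
    funext i
    rw [edge_mix]
    ring
  rw [e]
  linarith

theorem bound_pos {Φ : (Fin 3 → ℝ) → ℝ} (hΦ : Sub Φ) :
    ∃ B : ℝ, 0 ≤ B ∧ ∀ u : Fin 3 → ℝ, (∀ i, 0 ≤ u i) → |Φ u| ≤ B * Z u := by
  obtain ⟨B, hB⟩ := hΦ.bound
  refine ⟨|B|, abs_nonneg _, fun u hu => (hB u hu).trans ?_⟩
  exact mul_le_mul_of_nonneg_right (le_abs_self B) (Z_nonneg3 hu)

theorem integrable_tot {lam : ℝ} (h : Admissible 3 lam) (n : ℕ) (P : Measure ℕ)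
    [IsProbabilityMeasure P] {Φ : (Fin 3 → ℝ) → ℝ} (hΦ : Sub Φ) :
    Integrable (fun N : List ℕ → ℕ => tot Φ (lik 3 lam N n)) (gwLaw P) := by
  obtain ⟨B, hB⟩ := hΦ.bound
  exact Integrable.of_bound (measurable_tot_lik lam _ n).aestronglyMeasurable B
    (ae_of_all _ fun y => by
      rw [Real.norm_eq_abs]
      exact abs_tot_le (by norm_num) hB (isChan_lik (by norm_num) h n y))

theorem integrable_tk {lam : ℝ} (h : Admissible 3 lam) (n k : ℕ) (P : Measure ℕ)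
    [IsProbabilityMeasure P] {Φ : (Fin 3 → ℝ) → ℝ} (hΦ : Sub Φ) :
    Integrable (fun N : List ℕ → ℕ => tk 3 lam n Φ k (fun c => sub N c)) (gwLaw P) := by
  obtain ⟨B, hB⟩ := hΦ.bound
  exact (bm_tk (by norm_num) h n hB k).integrable P

/-- the one-child operator in the mixed form -/
theorem step_mix {laA rho : ℝ} (hA : Admissible 3 laA) (h0 : 0 ≤ rho) (h1 : rho ≤ 1)
    (h : Admissible 3 (laA * rho)) (n : ℕ) (P : Measure ℕ) [IsProbabilityMeasure P]
    {Φ : (Fin 3 → ℝ) → ℝ} (hΦ : Sub Φ) (u : Fin 3 → ℝ) (hu : ∀ i, 0 ≤ u i) :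
    ∫ M, tot (shf (laA * rho) Φ u) (lik 3 (laA * rho) M n) ∂(gwLaw P) ≤
      rho * ∫ M, tot (shf laA Φ u) (lik 3 (laA * rho) M n) ∂(gwLaw P) + (1 - rho) * Φ u := by
  have hi1 := integrable_tot h n P (shf_sub h hΦ u hu)
  have hi2 := integrable_tot h n P (shf_sub hA hΦ u hu)
  calc ∫ M, tot (shf (laA * rho) Φ u) (lik 3 (laA * rho) M n) ∂(gwLaw P)
      ≤ ∫ M, (rho * tot (shf laA Φ u) (lik 3 (laA * rho) M n) + (1 - rho) * Φ u) ∂(gwLaw P) := by
        refine integral_mono hi1 ((hi2.const_mul rho).add (integrable_const _)) fun M => ?_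
        have hc := isChan_lik (by norm_num : 0 < 3) h n M
        calc tot (shf (laA * rho) Φ u) (lik 3 (laA * rho) M n)
            ≤ ∑ x, (rho * shf laA Φ u (lik 3 (laA * rho) M n x) +
                (1 - rho) * Φ u * Z (lik 3 (laA * rho) M n x)) :=
              Finset.sum_le_sum fun x _ => shf_mix hA h0 h1 hΦ hu (hc.nonneg x)
          _ = rho * tot (shf laA Φ u) (lik 3 (laA * rho) M n) + (1 - rho) * Φ u := by
              rw [Finset.sum_add_distrib, ← Finset.mul_sum, ← Finset.mul_sum,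
                hc.sum_Z (by norm_num)]
              unfold tot
              ring
    _ = _ := by
        rw [MeasureTheory.integral_add (hi2.const_mul rho) (integrable_const _),
          integral_const_mul]
        simp

theorem tk_lin (lam : ℝ) (n k : ℕ) (a b : ℝ) (Φ Ψ : (Fin 3 → ℝ) → ℝ) (M : Fin k → List ℕ → ℕ) :
    tk 3 lam n (fun u => a * Φ u + b * Ψ u) k M = a * tk 3 lam n Φ k M + b * tk 3 lam n Ψ k M := by
  unfold tk tot
  rw [Finset.sum_add_distrib, ← Finset.mul_sum, ← Finset.mul_sum]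

theorem sub_lin {a b : ℝ} (ha : 0 ≤ a) (hb : 0 ≤ b) {Φ Ψ : (Fin 3 → ℝ) → ℝ} (hΦ : Sub Φ)
    (hΨ : Sub Ψ) : Sub (fun u => a * Φ u + b * Ψ u) where
  smul c hc u hu := by rw [hΦ.smul c hc u hu, hΨ.smul c hc u hu]; ring
  add u v hu hv := by
    have h1 := mul_le_mul_of_nonneg_left (hΦ.add u v hu hv) ha
    have h2 := mul_le_mul_of_nonneg_left (hΨ.add u v hu hv) hb
    linarith

section

variable {laA rho : ℝ} (hA : Admissible 3 laA) (h0 : 0 ≤ rho) (h1 : rho ≤ 1)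
  (h : Admissible 3 (laA * rho)) (n : ℕ) (P : Measure ℕ) [IsProbabilityMeasure P]
  {c : ℝ} {E : List V3} {f : List ℕ} (hc : 0 ≤ c)
  (hE : ∀ Φ : (Fin 3 → ℝ) → ℝ, Sub Φ → ∀ u : Fin 3 → ℝ, (∀ i, 0 ≤ u i) →
    ∫ M, tot (shf laA Φ u) (lik 3 (laA * rho) M n) ∂(gwLaw P) ≤ opL c E f Φ u)

include hA h0 h1 h hc hE in
theorem tk_bin : ∀ (k : ℕ) {Φ : (Fin 3 → ℝ) → ℝ}, Sub Φ →
    ∫ N, tk 3 (laA * rho) n Φ k (fun c => sub N c) ∂(gwLaw P) ≤
      bin rho k (fun j => opI c E f Φ j (fun _ => 1))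
  | 0, Φ, hΦ => by
    have : ∀ N : List ℕ → ℕ, tk 3 (laA * rho) n Φ 0 (fun c => sub N c) = Φ (fun _ => 1) := by
      intro N
      unfold tk
      rw [tot_prodN_zero]
    simp_rw [this]
    simp [bin, opI]
  | k + 1, Φ, hΦ => by
    have hB : Sub (opL c E f Φ) := opL_sub hc E f hΦ
    have hΨ : Sub (fun u => rho * opL c E f Φ u + (1 - rho) * Φ u) :=
      sub_lin h0 (by linarith) hB hΦ
    have h2 := tk_le h n P hΦ hΨ (fun u hu => by
      have h3 := step_mix hA h0 h1 h n P hΦ u hu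
      have h4 := mul_le_mul_of_nonneg_left (hE Φ hΦ u hu) h0
      linarith) k
    refine h2.trans ?_
    simp_rw [tk_lin]
    rw [MeasureTheory.integral_add ((integrable_tk h n k P hB).const_mul rho)
      ((integrable_tk h n k P hΦ).const_mul (1 - rho)), integral_const_mul, integral_const_mul]
    have h5 := tk_bin k hB
    have h6 := tk_bin k hΦ
    have e : (fun j => opI c E f (opL c E f Φ) j (fun _ => 1)) =
        fun j => opI c E f Φ (j + 1) (fun _ => 1) := by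
      funext j
      rw [opI_comm]
    rw [e] at h5
    show _ ≤ rho * bin rho k (fun j => opI c E f Φ (j + 1) (fun _ => 1)) +
      (1 - rho) * bin rho k (fun j => opI c E f Φ j (fun _ => 1))
    have h7 := mul_le_mul_of_nonneg_left h5 h0
    have h8 := mul_le_mul_of_nonneg_left h6 (by linarith : (0 : ℝ) ≤ 1 - rho)
    linarith

end

theorem opI_le_pure {c : ℝ} {s : ℕ} {E : List V3} {f : List ℕ} {N : ℕ} (hN : Nrm c s E f N)
    {Φ : (Fin 3 → ℝ) → ℝ} (hΦ : Sub Φ) : ∀ (j : ℕ) (u : Fin 3 → ℝ), (∀ i, 0 ≤ u i) →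
      opI c E f Φ j u ≤ pure3 Φ u
  | 0, u, hu => hΦ.le_pure u hu
  | j + 1, u, hu => hN.le_pure (opI_le_pure hN hΦ j) u hu

theorem one_nonneg' : ∀ i : Fin 3, (0 : ℝ) ≤ (fun _ : Fin 3 => (1 : ℝ)) i := fun _ => zero_le_one

theorem bin_bound {rho : ℝ} (h0 : 0 ≤ rho) (h1 : rho ≤ 1) {K : ℝ} :
    ∀ (k : ℕ) {b : ℕ → ℝ}, (∀ j, |b j| ≤ K) → |bin rho k b| ≤ K
  | 0, b, hb => hb 0
  | k + 1, b, hb => by
    have h2 := bin_bound h0 h1 k (b := fun j => b (j + 1)) (fun j => hb _)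
    have h3 := bin_bound h0 h1 k hb
    show |rho * bin rho k (fun j => b (j + 1)) + (1 - rho) * bin rho k b| ≤ K
    rw [abs_le] at h2 h3 ⊢
    constructor
    · nlinarith
    · nlinarith

/-- one generation of a Poisson tree -/
theorem pois_step {laA rho : ℝ} (hA : Admissible 3 laA) (h0 : 0 ≤ rho) (h1 : rho ≤ 1)
    (h : Admissible 3 (laA * rho)) (n : ℕ) (d : ℝ≥0) {s : ℝ} (hs : rho * d ≤ s)
    {c : ℝ} {E : List V3} {f : List ℕ} {se N : ℕ} (hN : Nrm c se E f N)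
    (hE : ∀ Φ : (Fin 3 → ℝ) → ℝ, Sub Φ → ∀ u : Fin 3 → ℝ, (∀ i, 0 ≤ u i) →
      ∫ M, tot (shf laA Φ u) (lik 3 (laA * rho) M n) ∂(gwLaw (poissonMeasure d)) ≤
        opL c E f Φ u)
    (J : ℕ) (w : ℕ → ℝ) (hw : ∀ j < J, w j ≤ Real.exp (-s) * (s ^ j / j.factorial))
    {Φ : (Fin 3 → ℝ) → ℝ} (hΦ : Sub Φ) :
    ∫ N, tot Φ (lik 3 (laA * rho) N (n + 1)) ∂(gwLaw (poissonMeasure d)) ≤
      ∑ j ∈ range J, w j * opI c E f Φ j (fun _ => 1) +
        (1 - ∑ j ∈ range J, w j) * pure3 Φ (fun _ => 1) := by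
  obtain ⟨B, hB0, hB⟩ := bound_pos hΦ
  have hrd : 0 ≤ rho * d := mul_nonneg h0 d.2
  set b : ℕ → ℝ := fun j => opI c E f Φ j (fun _ => 1) with hb
  have hsub : ∀ j, Sub (opI c E f Φ j) := fun j => opI_sub hN.pos E f hΦ j
  have hmono : ∀ j, b j ≤ b (j + 1) := fun j => hN.jensen (hsub j) _ one_nonneg'
  have htop : ∀ j, b j ≤ pure3 Φ (fun _ => 1) := fun j => opI_le_pure hN hΦ j _ one_nonneg'
  have hlow : ∀ j, Φ (fun _ => 1) ≤ b j := by
    intro j
    induction j with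
    | zero => exact le_rfl
    | succ j ih => exact ih.trans (hmono j)
  obtain ⟨K, hK⟩ : ∃ K, K = |Φ (fun _ => 1)| + |pure3 Φ (fun _ => 1)| := ⟨_, rfl⟩
  have hbK : ∀ j, |b j| ≤ K := by
    intro j
    rw [abs_le, hK]
    have := neg_abs_le (Φ (fun _ => 1))
    have := le_abs_self (pure3 Φ (fun _ => 1))
    have := abs_nonneg (Φ (fun _ => 1))
    have := abs_nonneg (pure3 Φ (fun _ => 1))
    have := htop j
    have := hlow j
    constructor
    · linarith
    · linarith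
  rw [integral_tot_succ (by norm_num) h n hB d]
  have ha : ∀ k, |∫ N, tk 3 (laA * rho) n Φ k (fun c => sub N c)
      ∂(gwLaw (poissonMeasure d))| ≤ B := by
    intro k
    have h2 : ∀ N : List ℕ → ℕ, ‖tk 3 (laA * rho) n Φ k (fun c => sub N c)‖ ≤ B := fun N =>
      abs_tot_le (by norm_num) hB (isChan_tk (by norm_num) h n k _)
    have h3 := norm_integral_le_of_norm_le_const (μ := gwLaw (poissonMeasure d)) (ae_of_all _ h2)
    simpa [Real.norm_eq_abs] using h3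
  have h2 : egf (fun k => ∫ N, tk 3 (laA * rho) n Φ k (fun c => sub N c)
      ∂(gwLaw (poissonMeasure d))) d ≤ egf (fun k => bin rho k b) d :=
    egf_mono ha (fun k => bin_bound h0 h1 k hbK)
      (fun k => tk_bin hA h0 h1 h n _ hN.pos hE k hΦ) d.2
  have h3 : Real.exp (-(d : ℝ)) * egf (fun k => bin rho k b) d =
      Real.exp (-(rho * d)) * egf b (rho * d) := by
    rw [egf_bin hbK, ← mul_assoc, ← Real.exp_add]
    congr 2
    ring
  have h4 := pois_mono hbK hmono hrd hs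
  have h5 := pois_trunc hbK htop (hrd.trans hs) J w hw
  calc Real.exp (-(d : ℝ)) * egf (fun k => ∫ N, tk 3 (laA * rho) n Φ k (fun c => sub N c)
      ∂(gwLaw (poissonMeasure d))) d
      ≤ Real.exp (-(d : ℝ)) * egf (fun k => bin rho k b) d :=
        mul_le_mul_of_nonneg_left h2 (Real.exp_pos _).le
    _ = Real.exp (-(rho * d)) * egf b (rho * d) := h3
    _ ≤ Real.exp (-s) * egf b s := h4
    _ ≤ _ := h5

end Pe

end Vale.Agent.P154
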