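import Vale.Agent.P154.Pe.StartC
import Vale.Agent.P154.C3Main
import Vale.Agent.P154.R5Fin

/-!
# P154: three colours, Poisson trees, `-1/2 ≤ λ ≤ 0`
-/

namespace Vale.Agent.P154

namespace Pe

open Evo hiding gen

theorem scC3_eq : Sep2.scC3 = pcs 10000 lC := rfl

/-- nonreconstruction on Poisson trees, `-1/2 ≤ λ ≤ -49/100` -/
theorem poisson_C3 {lam : ℝ} (h1 : -1 / 2 ≤ lam) (h2 : lam ≤ -49 / 100) {d : NNReal}
    (hd : d * lam ^ 2 ≤ 1) : Nonreconstruction (aPoisson 3 lam d) := by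
  have H : Sep2.ValidB Sep2.fullC3 Sep2.pcC3 (pcs 10000 lC) := scC3_eq ▸ Sep2.validC3
  refine nonrec_iii H ?_ ?_ h1 h2 hd
  · unfold Sep2.Full.dl
    norm_num [Sep2.fullC3, Sep2.datC3]
  · unfold Sep2.Full.lam
    norm_num [Sep2.fullC3, Sep2.datC3]

end Pe

/-- nonreconstruction on all Poisson trees, `-1/2 ≤ λ ≤ 0` -/
theorem poisson_neg {lam : ℝ} (h0 : -1 / 2 ≤ lam) (h1 : lam ≤ 0) {d : NNReal}
    (hd : d * lam ^ 2 ≤ 1) : Nonreconstruction (aPoisson 3 lam d) := by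
  rcases le_total lam (-49 / 100) with h | h
  · exact Pe.poisson_C3 h0 h hd
  · exact poisson_P12 h h1 hd

end Vale.Agent.P154
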