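import Vale.Agent.P154.Pe.Def
import Vale.Agent.P154.Pe.Pois

/-!
# P154: soundness of the kernel evolution on Poisson trees
-/

namespace Vale.Agent.P154

open Finset

namespace Pe

open Evo hiding gen

theorem mapV_eq (h : V3 → ℕ) : ∀ L : List V3, mapV h L = L.map h
  | [] => rfl
  | v :: L => by
    have e : mapV h (v :: L) = h v :: mapV h L := rfl
    rw [e, mapV_eq h L]
    rfl

theorem dot_nil (m : List ℕ) : dot [] m = 0 := rfl

theorem dot_cons_nil (c : ℕ) (row : List ℕ) : dot (c :: row) [] = 0 := rfl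

theorem dot_cons (c : ℕ) (row : List ℕ) (a : ℕ) (m : List ℕ) :
    dot (c :: row) (a :: m) = a * c + dot row m := rfl

theorem dot_lin (A B C : V3 → ℕ) (k : ℕ) (h : ∀ w, A w = B w + C w * 2 ^ k) :
    ∀ (L : List V3) (m : List ℕ), dot (L.map A) m = dot (L.map B) m + dot (L.map C) m * 2 ^ k
  | [], m => by simp [dot_nil]
  | v :: L, [] => by simp [dot_cons_nil]
  | v :: L, a :: m => by
    rw [List.map_cons, List.map_cons, List.map_cons, dot_cons, dot_cons, dot_cons,
      dot_lin A B C k h L m, h v]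
    ring

theorem unp_eq (E : V3 → V3 → ℕ) (Lb : ℕ) (EL : List V3) (f : List ℕ) (tl : List ℕ) :
    ∀ b : List V3, (∀ v ∈ b, dot (EL.map (E v)) f < 2 ^ Lb) →
      unp Lb b (dot (EL.map fun w => pk E Lb w b) f) tl =
        (b.map fun v => dot (EL.map (E v)) f) ++ tl
  | [], _ => rfl
  | v :: b, h => by
    have h1 := unp_eq E Lb EL f tl b fun w hw => h w (List.mem_cons_of_mem _ hw)
    have h2 := h v List.mem_cons_self
    have h3 : ∀ R : ℕ, unp Lb (v :: b) R tl =
        (R % 2 ^ Lb) :: unp Lb b (Nat.shiftRight R Lb) tl := fun R => rfl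
    have h4 := dot_lin (fun w => pk E Lb w (v :: b)) (E v) (fun w => pk E Lb w b) Lb
      (fun w => by
        have : pk E Lb w (v :: b) = E v w + Nat.shiftLeft (pk E Lb w b) Lb := rfl
        rw [this, shl]) EL f
    rw [h4, h3]
    have h5 : Nat.shiftRight (dot (EL.map (E v)) f +
        dot (EL.map fun w => pk E Lb w b) f * 2 ^ Lb) Lb = dot (EL.map fun w => pk E Lb w b) f := by
      have : ∀ x y : ℕ, Nat.shiftRight x y = x / 2 ^ y := fun x y => Nat.shiftRight_eq_div_pow _ _
      rw [this, Nat.add_mul_div_right _ _ (by positivity), Nat.div_eq_of_lt h2, zero_add]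
    rw [h5, h1, Nat.add_mul_mod_self_right, Nat.mod_eq_of_lt h2]
    rfl

theorem qrows_eq (E : V3 → V3 → ℕ) (Lb : ℕ) (EL : List V3) (f : List ℕ) :
    ∀ blks : List (List V3), (∀ b ∈ blks, ∀ v ∈ b, dot (EL.map (E v)) f < 2 ^ Lb) →
      qrows Lb f blks (rowsB E Lb EL blks) = blks.flatten.map fun v => dot (EL.map (E v)) f
  | [], _ => rfl
  | b :: blks, h => by
    have h1 := qrows_eq E Lb EL f blks fun b' hb' => h b' (List.mem_cons_of_mem _ hb')
    have h2 : qrows Lb f (b :: blks) (rowsB E Lb EL (b :: blks)) =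
        unp Lb b (dot (mapV (fun w => pk E Lb w b) EL) f) (qrows Lb f blks (rowsB E Lb EL blks)) :=
      rfl
    rw [h2, h1, mapV_eq, unp_eq E Lb EL f _ b (h b List.mem_cons_self), List.flatten_cons,
      List.map_append]

theorem takeV_eq : ∀ (g : ℕ) (l : List V3), takeV g l = l.take g
  | 0, l => by simp [takeV]
  | g + 1, [] => by simp [takeV]
  | g + 1, v :: l => by
    have : takeV (g + 1) (v :: l) = v :: takeV g l := rfl
    rw [this, takeV_eq g l]
    rfl

theorem dropV_eq : ∀ (g : ℕ) (l : List V3), dropV g l = l.drop g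
  | 0, l => by simp [dropV]
  | g + 1, [] => by
    have : dropV (g + 1) [] = [] := rfl
    rw [this]; simp
  | g + 1, v :: l => by
    have : dropV (g + 1) (v :: l) = dropV g l := rfl
    rw [this, dropV_eq g l]
    rfl

theorem blocks_flatten (g : ℕ) : ∀ (nb : ℕ) (l : List V3), l.length ≤ g * nb →
    (blocks g nb l).flatten = l
  | 0, l, h => by
    have h1 : l = [] := List.eq_nil_of_length_eq_zero (by simpa using h)
    subst h1
    rfl
  | nb + 1, l, h => by
    have h1 : blocks g (nb + 1) l = takeV g l :: blocks g nb (dropV g l) := rfl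
    have h2 := blocks_flatten g nb (dropV g l) (by
      rw [dropV_eq, List.length_drop]
      have : g * (nb + 1) = g * nb + g := by ring
      omega)
    rw [h1, List.flatten_cons, h2, takeV_eq, dropV_eq, List.take_append_drop]

section rep

variable {B M : ℕ} {ψ : ((Fin 3 → ℝ) → ℝ) → ℕ → ℝ}

theorem dot_map_rep (qv : V3 → ℕ) (x : ((Fin 3 → ℝ) → ℝ) → V3 → ℝ)
    (hq : ∀ v, Rep B M ψ (qv v) (fun Φ => x Φ v)) : ∀ (L : List V3) (m : List ℕ),
    Rep B M ψ (dot (L.map qv) m) (fun Φ => ls (x Φ) L m)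
  | [], m => by
    rw [List.map_nil, dot_nil]
    simpa [ls] using Rep.zero (B := B) (M := M) (ψ := ψ)
  | v :: L, [] => by
    rw [List.map_cons, dot_cons_nil]
    simpa [ls] using Rep.zero (B := B) (M := M) (ψ := ψ)
  | v :: L, a :: m => by
    have h1 := dot_map_rep qv x hq L m
    rw [List.map_cons, dot_cons]
    exact (((hq v).smul a).add h1).mono fun Φ _ => le_of_eq rfl

end rep

theorem ls_comm (F : V3 → V3 → ℝ) (L : List V3) (m : List ℕ) : ∀ (E : List V3) (f : List ℕ),
    ls (fun w => ls (fun v => F w v) L m) E f = ls (fun v => ls (fun w => F w v) E f) L m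
  | [], f => by
    have : (fun v => ls (fun w => F w v) [] f) = fun _ => (0 : ℝ) * 0 := by
      funext v; simp [ls]
    rw [this, ls_smul]
    simp [ls]
  | w :: E, [] => by
    have : (fun v => ls (fun w => F w v) (w :: E) []) = fun _ => (0 : ℝ) * 0 := by
      funext v; simp [ls]
    rw [this, ls_smul]
    simp [ls]
  | w :: E, a :: f => by
    have h1 := ls_comm F L m E f
    have h2 : (fun v => ls (fun w => F w v) (w :: E) (a :: f)) =
        fun v => (a : ℝ) * F w v + ls (fun w => F w v) E f := by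
      funext v; rfl
    rw [h2, ls_add, ls_smul, ← h1]
    rfl

section step

variable {n B M : ℕ} {L0 : List V3}

theorem rep_tot (hM : Mesh n M L0) (hn : 0 < n) {τ : ℕ} {R : ℕ}
    {x : ((Fin 3 → ℝ) → ℝ) → ℝ} (h : Rep B M (psi L0) R x)
    (hp : x sg = 36 * n * τ) (hm : x (fun u => -sg u) = -(36 * n * τ)) :
    ∃ F : ℕ → ℕ, R = ∑ l ∈ range M, F l * 2 ^ (B * l) ∧ ∑ l ∈ range M, F l = τ := by
  obtain ⟨F, hR, hF⟩ := h
  have hn' : (0 : ℝ) < n := by exact_mod_cast hn
  refine ⟨F, hR, ?_⟩
  have h1 := hF _ sub_sg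
  have h2 := hF _ sub_neg_sg
  rw [hp] at h1
  rw [hm] at h2
  have e1 : ∑ l ∈ range M, (F l : ℝ) * psi L0 sg l = 36 * n * ∑ l ∈ range M, (F l : ℝ) := by
    rw [Finset.mul_sum]
    refine Finset.sum_congr rfl fun l hl => ?_
    unfold psi
    rw [sy_sg, hM.sg_vert l (Finset.mem_range.1 hl)]
    ring
  have e2 : ∑ l ∈ range M, (F l : ℝ) * psi L0 (fun u => -sg u) l =
      -(36 * n * ∑ l ∈ range M, (F l : ℝ)) := by
    rw [Finset.mul_sum, ← Finset.sum_neg_distrib]
    refine Finset.sum_congr rfl fun l hl => ?_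
    unfold psi
    rw [sy_neg_sg, hM.sg_vert l (Finset.mem_range.1 hl)]
    ring
  rw [e1] at h1
  rw [e2] at h2
  have h3 : (36 * (n : ℝ)) * τ = (36 * n) * ∑ l ∈ range M, (F l : ℝ) := by linarith
  have h4 := mul_left_cancel₀ (by positivity) h3
  have h5 : ((∑ l ∈ range M, F l : ℕ) : ℝ) = (τ : ℝ) := by
    push_cast
    linarith
  exact_mod_cast h5

theorem lt_of_digits (B : ℕ) : ∀ (M : ℕ) (F : ℕ → ℕ), (∀ l < M, F l < 2 ^ B) →
    ∑ l ∈ range M, F l * 2 ^ (B * l) < 2 ^ (B * M)
  | 0, F, _ => by simp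
  | M + 1, F, h => by
    have h1 := lt_of_digits B M F fun l hl => h l (by omega)
    have h2 := h M (Nat.lt_succ_self M)
    rw [Finset.sum_range_succ]
    have h3 : F M * 2 ^ (B * M) + 2 ^ (B * M) ≤ 2 ^ B * 2 ^ (B * M) := by
      have : F M + 1 ≤ 2 ^ B := h2
      calc F M * 2 ^ (B * M) + 2 ^ (B * M) = (F M + 1) * 2 ^ (B * M) := by ring
        _ ≤ 2 ^ B * 2 ^ (B * M) := Nat.mul_le_mul_right _ this
    have h4 : 2 ^ (B * (M + 1)) = 2 ^ B * 2 ^ (B * M) := by
      rw [← pow_add]; congr 1; ring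
    rw [h4]
    omega

/-- the packed product row of a vertex -/
theorem row_rep (hM : Mesh n M L0) (v : V3) (E : List V3) (f : List ℕ) :
    Rep B M (psi L0) (dot (E.map (ent n B v)) f)
      (fun Φ => 6 * n * ls (fun w => e2 Φ v w) E f) := by
  refine (dot_map_rep (ent n B v) (fun Φ w => 6 * n * e2 Φ v w)
    (fun w => ent_rep hM v w) E f).mono fun Φ _ => ?_
  rw [ls_smul]

theorem row_val (hL1 : ∀ v ∈ L0, v.a + v.b + v.c = 6 * n) {se N : ℕ} {E : List V3}
    (hE : ∀ w ∈ E, w.a + w.b + w.c = se) {f : List ℕ} (hlen : f.length = E.length)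
    (hsum : f.sum = N) {v : V3} (hv : v ∈ L0) :
    ls (fun w => e2 sg v w) E f = 72 * n * se * N ∧
      ls (fun w => e2 (fun u => -sg u) v w) E f = -(72 * n * se * N) := by
  have hv' : sg (vc v) = 6 * n := by
    rw [sg_vc, hL1 v hv]; push_cast; ring
  constructor
  · rw [ls_const (fun w => e2 sg v w) (72 * n * se) E f (fun w hw => by
      rw [e2_sg, hv', sg_vc, hE w hw]; ring) hlen, hsum]
  · rw [ls_const (fun w => e2 (fun u => -sg u) v w) (-(72 * n * se)) E f (fun w hw => by
      rw [e2_neg_sg, hv', sg_vc, hE w hw]; ring) hlen, hsum]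
    ring

theorem row_lt (hM : Mesh n M L0) (hn : 0 < n) {se N : ℕ} {E : List V3}
    (hE : ∀ w ∈ E, w.a + w.b + w.c = se) {f : List ℕ} (hlen : f.length = E.length)
    (hsum : f.sum = N) (hB : 12 * n * se * N < 2 ^ B) {v : V3} (hv : v ∈ L0) :
    dot (E.map (ent n B v)) f < 2 ^ (B * M) := by
  obtain ⟨h1, h2⟩ := row_val hM.total hE hlen hsum hv
  obtain ⟨F, hF, hs⟩ := rep_tot (τ := 12 * n * se * N) hM hn (row_rep (B := B) hM v E f)
    (by rw [h1]; push_cast; ring) (by rw [h2]; push_cast; ring)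
  rw [hF]
  refine lt_of_digits B M F fun l hl => ?_
  have := Finset.single_le_sum (f := F) (fun _ _ => Nat.zero_le _) (Finset.mem_range.2 hl)
  omega

/-- one multiplication at the level of operators -/
theorem mulQ_step (hM : Mesh n M L0) (hn : 0 < n) {se N : ℕ} (hse : 0 < se) (hN0 : 0 < N)
    {cE : ℝ} {E : List V3} {f : List ℕ} (hN : Nrm cE se E f N)
    {D : ℕ} (hD : D = 12 * n * se * N) {H : List ℕ} (hlen : H.length = M)
    (hB : D * H.sum < 2 ^ B) :
    (mulQ D B M (L0.map fun v => dot (E.map (ent n B v)) f) H).length = M ∧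
    (mulQ D B M (L0.map fun v => dot (E.map (ent n B v)) f) H).sum = H.sum ∧
    ∀ (c : ℝ), 0 ≤ c → ∀ Φ : (Fin 3 → ℝ) → ℝ, Sub Φ → ∀ u : Fin 3 → ℝ, (∀ i, 0 ≤ u i) →
      opL cE E f (opL c L0 H Φ) u ≤
        opL c L0 (mulQ D B M (L0.map fun v => dot (E.map (ent n B v)) f) H) Φ u := by
  have hn' : (0 : ℝ) < n := by exact_mod_cast hn
  have hr : Rep B M (psi L0) (dot (L0.map fun v => dot (E.map (ent n B v)) f) H)
      (fun Φ => ls (fun v => 6 * n * ls (fun w => e2 Φ v w) E f) L0 H) :=
    dot_map_rep (fun v => dot (E.map (ent n B v)) f)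
      (fun Φ v => 6 * n * ls (fun w => e2 Φ v w) E f) (fun v => row_rep hM v E f) L0 H
  have hlen' : H.length = L0.length := by rw [hlen, hM.len]
  have hp : ls (fun v => 6 * n * ls (fun w => e2 sg v w) E f) L0 H =
      36 * n * ((D : ℝ) * (H.sum : ℝ)) := by
    rw [ls_const _ (6 * n * (72 * n * se * N)) L0 H (fun v hv => by
      rw [(row_val hM.total hN.tot hN.len hN.sum hv).1]) hlen', hD]
    push_cast
    ring
  have hm : ls (fun v => 6 * n * ls (fun w => e2 (fun u => -sg u) v w) E f) L0 H =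
      -(36 * n * ((D : ℝ) * (H.sum : ℝ))) := by
    rw [ls_const _ (-(6 * n * (72 * n * se * N))) L0 H (fun v hv => by
      rw [(row_val hM.total hN.tot hN.len hN.sum hv).2]; ring) hlen', hD]
    push_cast
    ring
  have hD0 : 0 < D := by rw [hD]; positivity
  have h3 := fin_rep hM hn hD0 hB hr hp hm
  have hQ : mulQ D B M (L0.map fun v => dot (E.map (ent n B v)) f) H =
      fin H.sum D B M (dot (L0.map fun v => dot (E.map (ent n B v)) f) H) := by
    unfold mulQ
    rw [sumL_eq]
  rw [hQ]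
  refine ⟨h3.1, h3.2.1, fun c hc Φ hΦ u hu => ?_⟩
  have h4 := h3.2.2 (fun x => Φ (fun i => u i * x i)) (hΦ.mul u hu)
  generalize fin H.sum D B M (dot (L0.map fun v => dot (E.map (ent n B v)) f) H) = H' at h4
  -- both sides
  have e1 : opL cE E f (opL c L0 H Φ) u = cE * (c * ls (fun v => ls (fun w =>
      e2 (fun x => Φ (fun i => u i * x i)) v w) E f) L0 H) := by
    unfold opL
    have e2' : (fun w : V3 => ∑ p : Equiv.Perm (Fin 3), c * ls (fun v =>
        ∑ t : Equiv.Perm (Fin 3), Φ (fun i => u i * vc w (p i) * vc v (t i))) L0 H) =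
        fun w => c * ls (fun v => e2 (fun x => Φ (fun i => u i * x i)) v w) L0 H := by
      funext w
      rw [← Finset.mul_sum]
      congr 1
      have e3 : ∀ (S : Finset (Equiv.Perm (Fin 3))) (G : Equiv.Perm (Fin 3) → V3 → ℝ),
          ∑ p ∈ S, ls (fun v => G p v) L0 H = ls (fun v => ∑ p ∈ S, G p v) L0 H := by
        intro S G
        induction S using Finset.induction_on with
        | empty =>
          simp only [Finset.sum_empty]
          have := ls_smul 0 (fun _ => 0) L0 H
          simp at this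
          exact this.symm
        | insert p S hp ih =>
          rw [Finset.sum_insert hp, ih, ← ls_add]
          congr 1
          funext v
          rw [Finset.sum_insert hp]
      rw [e3]
      congr 1
      funext v
      rw [e2_eq, Finset.sum_comm]
      refine Finset.sum_congr rfl fun t _ => Finset.sum_congr rfl fun p _ => ?_
      congr 1
      funext i
      ring
    rw [e2', ls_smul, ls_comm]
  rw [e1]
  have h5 : 6 * (n : ℝ) * ls (fun v => ls (fun w =>
      e2 (fun x => Φ (fun i => u i * x i)) v w) E f) L0 H ≤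
      D * ls (fun v => sy (fun x => Φ (fun i => u i * x i)) (vc v)) L0 H' := by
    rw [← ls_smul]
    exact h4
  have h6 : opL c L0 H' Φ u =
      c * ls (fun v => sy (fun x => Φ (fun i => u i * x i)) (vc v)) L0 H' := rfl
  rw [h6]
  have hone := hN.one
  have h7 : 0 < 6 * (n : ℝ) := by positivity
  have h8 : 0 ≤ cE * c := mul_nonneg hN.pos hc
  refine le_of_mul_le_mul_left ?_ h7
  calc 6 * (n : ℝ) * (cE * (c * ls (fun v => ls (fun w =>
      e2 (fun x => Φ (fun i => u i * x i)) v w) E f) L0 H))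
      = (cE * c) * (6 * (n : ℝ) * ls (fun v => ls (fun w =>
          e2 (fun x => Φ (fun i => u i * x i)) v w) E f) L0 H) := by ring
    _ ≤ (cE * c) * (D * ls (fun v => sy (fun x => Φ (fun i => u i * x i)) (vc v)) L0 H') :=
        mul_le_mul_of_nonneg_left h5 h8
    _ = (cE * (2 * se * N)) * (6 * n) * (c *
          ls (fun v => sy (fun x => Φ (fun i => u i * x i)) (vc v)) L0 H') := by
        rw [hD]; push_cast; ring
    _ = _ := by rw [hone]; ring

end step

theorem addLast_len (c : ℕ) : ∀ l : List ℕ, (addLast c l).length = l.length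
  | [] => rfl
  | [_] => rfl
  | a :: b :: l => by
    have h : addLast c (a :: b :: l) = a :: addLast c (b :: l) := rfl
    rw [h, List.length_cons, addLast_len c (b :: l)]
    rfl

theorem addLast_sum (c : ℕ) : ∀ l : List ℕ, l ≠ [] → (addLast c l).sum = l.sum + c
  | [], h => absurd rfl h
  | [a], _ => by
    have h : addLast c [a] = [a + c] := rfl
    rw [h]; simp
  | a :: b :: l, _ => by
    have h : addLast c (a :: b :: l) = a :: addLast c (b :: l) := rfl
    rw [h, List.sum_cons, addLast_sum c (b :: l) (by simp)]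
    simp only [List.sum_cons]
    ring

theorem addLast_ls (c : ℕ) (φ : V3 → ℝ) (v0 : V3) : ∀ (L : List V3) (l : List ℕ),
    l.length = L.length → L.getLast? = some v0 →
      ls φ L (addLast c l) = ls φ L l + c * φ v0
  | [], _, _, h => by simp at h
  | [v], [a], _, h => by
    have h1 : v = v0 := by simpa using h
    subst h1
    have h2 : addLast c [a] = [a + c] := rfl
    rw [h2]
    simp only [ls]
    push_cast
    ring
  | [v], [], h, _ => by simp at h
  | [v], _ :: _ :: _, h, _ => by simp at h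
  | v :: v' :: L, [], h, _ => by simp at h
  | v :: v' :: L, [_], h, _ => by simp at h
  | v :: v' :: L, a :: b :: l, h, hl => by
    have h1 : addLast c (a :: b :: l) = a :: addLast c (b :: l) := rfl
    have h2 := addLast_ls c φ v0 (v' :: L) (b :: l) (by simpa using h)
      (by rwa [List.getLast?_cons_cons] at hl)
    rw [h1]
    show (a : ℝ) * φ v + ls φ (v' :: L) (addLast c (b :: l)) =
      (a * φ v + ls φ (v' :: L) (b :: l)) + c * φ v0
    rw [h2]
    ring

end Pe

end Vale.Agent.P154
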