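import Vale.Agent.P154.Pe.Bridge

/-!
# P154: the start functional of the third Poisson certificate
-/

namespace Vale.Agent.P154

open MeasureTheory ProbabilityTheory Finset
open scoped BigOperators ENNReal NNReal

namespace Pe

open Evo hiding gen

/-- coefficients of the start functional -/
def lC : List (ℤ × ℕ) :=
  [(0, 10097), (-4, 10187), (-19, 10333), (-77, 10628), (-273, 11186), (-993, 12386),
    (-3570, 14963), (-12770, 21534), (-56108, 47028), (-5326562, 2880605)]

set_option maxRecDepth 100000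

theorem lsZ_C : lsZ (phN 20 lC) (Evo.mesh 20) pC_20 ≤ 657129996288000 := by decide +kernel

/-- expected start value at depth 110 -/
theorem start_iii {lam : ℝ} (h1 : -1 / 2 ≤ lam) (h2 : lam ≤ -49 / 100) {d : ℝ≥0}
    (hd : d * lam ^ 2 ≤ 1) :
    ∫ T, tot (PhM 10000 lC) (lik 3 lam T 110) ∂(gwLaw (poissonMeasure d)) ≤ 34 / 125 := by
  refine ((boxC h1 h2 hd).start mesh20 (by norm_num) (by norm_num) (by norm_num) lC lsZ_C).trans
    (le_of_eq ?_)
  norm_num

/-- the third range from a certificate -/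
theorem nonrec_iii {F : Sep2.Full} {P : List Sep2.Pc} (H : Sep2.ValidB F P (pcs 10000 lC))
    (hT : (34 / 125 : ℝ) ≤ F.N * F.dl) (h0 : F.lam = -1 / 2)
    {lam : ℝ} (h1 : -1 / 2 ≤ lam) (h2 : lam ≤ -49 / 100) {d : ℝ≥0}
    (hd : d * lam ^ 2 ≤ 1) : Nonreconstruction (aPoisson 3 lam d) := by
  refine nonrec_of_box H (by norm_num) mesh20 (by norm_num) (by norm_num) lsZ_C ?_
    (by rw [h0]; exact h1) (by linarith) hd (boxC h1 h2 hd)
  refine le_trans (le_of_eq ?_) hT
  norm_num

end Pe

end Vale.Agent.P154
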